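import Vale.Agent.P102.Defs

open MeasureTheory Filter Topology
open scoped RealInnerProductSpace ENNReal

namespace Vale.Agent.P102

variable {Ω : Type*} [MeasurableSpace Ω] {μ : Measure Ω} {T : Ω ≃ᵐ Ω}

lemma zp_zero (ω : Ω) : zp T 0 ω = ω := by simp [zp]

lemma zp_add (m n : ℤ) (ω : Ω) : zp T (m + n) ω = zp T m (zp T n ω) := by
  simp [zp, zpow_add]

lemma zp_one (ω : Ω) : zp T 1 ω = T ω := by simp [zp]

lemma zp_neg_one (ω : Ω) : zp T (-1) ω = T.symm ω := by
  simp [zp]

lemma mp_zp (hT : MeasurePreserving T μ μ) (n : ℤ) : MeasurePreserving (zp T n) μ μ := by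
  induction n using Int.induction_on with
  | zero =>
    have : zp T 0 = id := by
      funext ω; simp [zp_zero]
    rw [this]
    exact MeasurePreserving.id μ
  | succ n ih =>
    have : zp T (n + 1) = zp T n ∘ T := by
      funext ω; simp [zp_add, zp_one]
    rw [this]
    exact ih.comp hT
  | pred n ih =>
    have : zp T (-n - 1) = zp T (-n) ∘ T.symm := by
      funext ω
      have : (-(n:ℤ) - 1) = -n + (-1) := by ring
      rw [this, zp_add, zp_neg_one]
      rfl
    rw [this]
    exact ih.comp (hT.symm T)

/-- correlation integral -/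
noncomputable def corr {k : ℕ} (μ : Measure Ω) (T : Ω ≃ᵐ Ω) (s : Fin k → ℤ) (f : Fin k → Ω → ℝ) : ℝ :=
  ∫ ω, ∏ i, f i (zp T (s i) ω) ∂μ

/-- a.e. bounded and a.e. strongly measurable -/
def BM (μ : Measure Ω) (f : Ω → ℝ) : Prop :=
  AEStronglyMeasurable f μ ∧ ∃ C : ℝ, 0 ≤ C ∧ ∀ᵐ ω ∂μ, |f ω| ≤ C

lemma BM.mul {f g : Ω → ℝ} (hf : BM μ f) (hg : BM μ g) : BM μ (fun ω => f ω * g ω) := by
  obtain ⟨hf1, C, hC, hf2⟩ := hf
  obtain ⟨hg1, D, hD, hg2⟩ := hg
  refine ⟨hf1.mul hg1, C * D, mul_nonneg hC hD, ?_⟩
  filter_upwards [hf2, hg2] with ω h1 h2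
  rw [abs_mul]
  exact mul_le_mul h1 h2 (abs_nonneg _) hC

lemma BM.congr {f g : Ω → ℝ} (hf : BM μ f) (h : f =ᵐ[μ] g) : BM μ g := by
  obtain ⟨hf1, C, hC, hf2⟩ := hf
  refine ⟨hf1.congr h, C, hC, ?_⟩
  filter_upwards [hf2, h] with ω h1 h2
  rw [← h2]; exact h1

lemma BM.comp {f : Ω → ℝ} (hf : BM μ f) {S : Ω → Ω} (hS : MeasurePreserving S μ μ) :
    BM μ (fun ω => f (S ω)) := by
  obtain ⟨hf1, C, hC, hf2⟩ := hf
  refine ⟨hf1.comp_measurePreserving hS, C, hC, ?_⟩
  exact hS.quasiMeasurePreserving.ae hf2

lemma BM.prod {ι : Type*} (s : Finset ι) {f : ι → Ω → ℝ} (hf : ∀ i ∈ s, BM μ (f i)) :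
    BM μ (fun ω => ∏ i ∈ s, f i ω) := by
  classical
  induction s using Finset.induction_on with
  | empty =>
    simp only [Finset.prod_empty]
    exact ⟨aestronglyMeasurable_const, 1, zero_le_one, by simp⟩
  | insert a s ha ih =>
    simp only [Finset.prod_insert ha]
    exact (hf a (Finset.mem_insert_self a s)).mul
      (ih fun i hi => hf i (Finset.mem_insert_of_mem hi))

lemma BM.integrable [IsProbabilityMeasure μ] {f : Ω → ℝ} (hf : BM μ f) : Integrable f μ := by
  obtain ⟨hf1, C, hC, hf2⟩ := hf
  exact Integrable.of_bound hf1 C (by simpa [Real.norm_eq_abs] using hf2)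

lemma BM.integrable_mul {f g : Ω → ℝ} (hf : BM μ f) (hg : Integrable g μ) :
    Integrable (fun ω => g ω * f ω) μ := by
  obtain ⟨hf1, C, hC, hf2⟩ := hf
  refine hg.mul_bdd (c := C) hf1 ?_
  simpa [Real.norm_eq_abs] using hf2

lemma BM_indicator {A : Set Ω} (hA : MeasurableSet A) : BM μ (A.indicator (fun _ => (1:ℝ))) := by
  refine ⟨(measurable_const.indicator hA).aestronglyMeasurable, 1, zero_le_one, ?_⟩
  filter_upwards with ω
  by_cases h : ω ∈ A <;> simp [h]

/-- the factor in front of coordinate `p` -/
lemma prod_update {k : ℕ} (s : Fin k → ℤ) (f : Fin k → Ω → ℝ) (p : Fin k) (g : Ω → ℝ) (ω : Ω) :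
    ∏ i, Function.update f p g i (zp T (s i) ω) =
      g (zp T (s p) ω) * ∏ i ∈ Finset.univ.erase p, f i (zp T (s i) ω) := by
  rw [← Finset.mul_prod_erase Finset.univ _ (Finset.mem_univ p)]
  simp only [Function.update_self]
  congr 1
  apply Finset.prod_congr rfl
  intro i hi
  rw [Function.update_of_ne (Finset.ne_of_mem_erase hi)]

lemma corr_congr {k : ℕ} (hT : MeasurePreserving T μ μ) (s : Fin k → ℤ) {f g : Fin k → Ω → ℝ}
    (h : ∀ i, f i =ᵐ[μ] g i) : corr μ T s f = corr μ T s g := by
  unfold corr
  apply integral_congr_ae
  have : ∀ i, ∀ᵐ ω ∂μ, f i (zp T (s i) ω) = g i (zp T (s i) ω) := fun i =>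
    (mp_zp hT (s i)).quasiMeasurePreserving.ae (h i)
  filter_upwards [ae_all_iff.2 this] with ω hω
  exact Finset.prod_congr rfl fun i _ => hω i

/-- From sets to bounded functions. -/
lemma mixFun [IsProbabilityMeasure μ] (hT : MeasurePreserving T μ μ) {k : ℕ}
    (hmix : MixingOfOrder μ T k)
    (t : ℕ → Fin k → ℤ) (ht : ∀ i j, i < j → Tendsto (fun N => t N j - t N i) atTop atTop)
    (f : Fin k → Ω → ℝ) (hf : ∀ i, BM μ (f i)) :
    Tendsto (fun N => corr μ T (t N) f) atTop (𝓝 (∏ i, ∫ ω, f i ω ∂μ)) := by
  classical
  have key : ∀ s : Finset (Fin k), ∀ f : Fin k → Ω → ℝ, (∀ i ∈ s, BM μ (f i)) →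
      (∀ i ∉ s, ∃ A : Set Ω, MeasurableSet A ∧ f i = A.indicator (fun _ => (1:ℝ))) →
      Tendsto (fun N => corr μ T (t N) f) atTop (𝓝 (∏ i, ∫ ω, f i ω ∂μ)) := by
    intro s
    induction s using Finset.induction_on with
    | empty =>
      intro f _ h2
      choose A hA hfA using fun i => h2 i (Finset.notMem_empty i)
      have e1 : ∀ N, corr μ T (t N) f = μ.real (⋂ i, zp T (t N i) ⁻¹' A i) := by
        intro N
        unfold corr
        have : (fun ω => ∏ i, f i (zp T (t N i) ω)) =
            (⋂ i, zp T (t N i) ⁻¹' A i).indicator (fun _ => (1:ℝ)) := by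
          funext ω
          simp only [hfA]
          by_cases h : ω ∈ ⋂ i, zp T (t N i) ⁻¹' A i
          · rw [Set.indicator_of_mem h]
            apply Finset.prod_eq_one
            intro i _
            rw [Set.indicator_of_mem]
            exact Set.mem_iInter.1 h i
          · rw [Set.indicator_of_notMem h]
            simp only [Set.mem_iInter, not_forall] at h
            obtain ⟨i, hi⟩ := h
            apply Finset.prod_eq_zero (Finset.mem_univ i)
            rw [Set.indicator_of_notMem]
            exact hi
        rw [this, integral_indicator_const _ (MeasurableSet.iInter fun i =>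
          (mp_zp hT (t N i)).measurable (hA i))]
        simp
      have e2 : ∏ i, ∫ ω, f i ω ∂μ = ∏ i, μ.real (A i) := by
        apply Finset.prod_congr rfl
        intro i _
        rw [hfA i, integral_indicator_const _ (hA i)]
        simp
      rw [e2]
      simp only [e1]
      rw [Metric.tendsto_atTop]
      intro ε hε
      obtain ⟨M, hM⟩ := hmix A hA ε hε
      have : ∀ᶠ N in atTop, ∀ i j, i < j → M ≤ t N j - t N i := by
        rw [eventually_all]
        intro i
        rw [eventually_all]
        intro j
        by_cases hij : i < j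
        · filter_upwards [(ht i j hij).eventually_ge_atTop M] with N hN _
          exact hN
        · exact Eventually.of_forall fun N h => absurd h hij
      obtain ⟨N₀, hN₀⟩ := eventually_atTop.1 this
      refine ⟨N₀, fun N hN => ?_⟩
      rw [Real.dist_eq]
      exact hM (t N) (hN₀ N hN)
    | insert a s ha ih =>
      intro f h1 h2
      -- vary the coordinate `a`
      have hfa : BM μ (f a) := h1 a (Finset.mem_insert_self a s)
      have hoth : ∀ i, i ≠ a → BM μ (f i) := by
        intro i hi
        by_cases his : i ∈ s
        · exact h1 i (Finset.mem_insert_of_mem his)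
        · obtain ⟨A, hA, hfA⟩ := h2 i (by simp [hi, his])
          rw [hfA]
          exact BM_indicator hA
      set L : ℝ := ∏ i ∈ Finset.univ.erase a, ∫ ω, f i ω ∂μ with hL
      have hV : ∀ N, BM μ (fun ω => ∏ i ∈ Finset.univ.erase a, f i (zp T (t N i) ω)) := by
        intro N
        apply BM.prod
        intro i hi
        exact (hoth i (Finset.ne_of_mem_erase hi)).comp (mp_zp hT _)
      -- uniform bound
      obtain ⟨B, hB0, hB⟩ : ∃ B : ℝ, 0 ≤ B ∧ ∀ N, ∀ᵐ ω ∂μ,
          |∏ i ∈ Finset.univ.erase a, f i (zp T (t N i) ω)| ≤ B := by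
        choose C hC0 hC using fun i : {i // i ≠ a} => (hoth i.1 i.2).2
        refine ⟨∏ i ∈ Finset.univ.erase a, if h : i ≠ a then C ⟨i, h⟩ else 1, ?_, ?_⟩
        · apply Finset.prod_nonneg
          intro i hi
          rw [dif_pos (Finset.ne_of_mem_erase hi)]
          exact hC0 _
        · intro N
          have : ∀ i : {i // i ≠ a}, ∀ᵐ ω ∂μ, |f i (zp T (t N i) ω)| ≤ C i := fun i =>
            (mp_zp hT (t N i)).quasiMeasurePreserving.ae (hC i)
          filter_upwards [ae_all_iff.2 this] with ω hω
          rw [Finset.abs_prod]
          apply Finset.prod_le_prod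
          · intro i _; exact abs_nonneg _
          · intro i hi
            rw [dif_pos (Finset.ne_of_mem_erase hi)]
            exact hω ⟨i, Finset.ne_of_mem_erase hi⟩
      have hcorr : ∀ N (g : Ω → ℝ), corr μ T (t N) (Function.update f a g) =
          ∫ ω, g (zp T (t N a) ω) * ∏ i ∈ Finset.univ.erase a, f i (zp T (t N i) ω) ∂μ := by
        intro N g
        unfold corr
        simp only [prod_update]
      have hint : ∀ N (g : Ω → ℝ), Integrable g μ → Integrable (fun ω => g (zp T (t N a) ω) *
          ∏ i ∈ Finset.univ.erase a, f i (zp T (t N i) ω)) μ := by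
        intro N g hg
        exact (hV N).integrable_mul ((mp_zp hT (t N a)).integrable_comp_of_integrable hg)
      have main : ∀ g : Ω → ℝ, Integrable g μ →
          Tendsto (fun N => corr μ T (t N) (Function.update f a g)) atTop
            (𝓝 ((∫ ω, g ω ∂μ) * L)) := by
        intro g hg
        refine Integrable.induction (P := fun g : Ω → ℝ =>
          Tendsto (fun N => corr μ T (t N) (Function.update f a g)) atTop
            (𝓝 ((∫ ω, g ω ∂μ) * L))) ?_ ?_ ?_ ?_ hg
        · intro c A hA _
          have := ih (Function.update f a (A.indicator (fun _ => (1:ℝ)))) ?_ ?_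
          · have h3 := this.const_mul c
            have e3 : ∀ N, corr μ T (t N) (Function.update f a (A.indicator fun _ => c)) =
                c * corr μ T (t N) (Function.update f a (A.indicator fun _ => (1:ℝ))) := by
              intro N
              rw [hcorr, hcorr, ← integral_const_mul]
              congr 1
              funext ω
              by_cases h : zp T (t N a) ω ∈ A <;> simp [h]
            simp only [e3]
            convert h3 using 2
            rw [← Finset.mul_prod_erase Finset.univ _ (Finset.mem_univ a)]
            simp only [Function.update_self]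
            have e4 : ∏ x ∈ Finset.univ.erase a,
                ∫ ω, Function.update f a (A.indicator fun _ => (1:ℝ)) x ω ∂μ = L := by
              apply Finset.prod_congr rfl
              intro i hi
              rw [Function.update_of_ne (Finset.ne_of_mem_erase hi)]
            rw [e4, integral_indicator_const _ hA, integral_indicator_const _ hA]
            simp only [smul_eq_mul]
            ring
          · intro i hi
            have hia : i ≠ a := fun h => ha (h ▸ hi)
            rw [Function.update_of_ne hia]
            exact hoth i hia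
          · intro i hi
            by_cases hia : i = a
            · subst hia
              exact ⟨A, hA, by simp⟩
            · rw [Function.update_of_ne hia]
              exact h2 i (by simp [hia, hi])
        · intro g g' _ hg hg' h3 h4
          have e3 : ∀ N, corr μ T (t N) (Function.update f a (g + g')) =
              corr μ T (t N) (Function.update f a g) + corr μ T (t N) (Function.update f a g') := by
            intro N
            rw [hcorr, hcorr, hcorr, ← integral_add (hint N g hg) (hint N g' hg')]
            congr 1
            funext ω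
            simp only [Pi.add_apply]
            ring
          simp only [e3]
          convert h3.add h4 using 2
          rw [← add_mul]
          congr 1
          simp only [Pi.add_apply]
          exact integral_add hg hg'
        · rw [← isSeqClosed_iff_isClosed]
          intro x y hx hxy
          simp only [Set.mem_ofPred_eq] at hx ⊢
          have hdiff : ∀ m N, |corr μ T (t N) (Function.update f a (y : Ω → ℝ)) -
              corr μ T (t N) (Function.update f a (x m : Ω → ℝ))| ≤ B * ‖y - x m‖ := by
            intro m N
            have hy := L1.integrable_coeFn y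
            have hxm := L1.integrable_coeFn (x m)
            rw [hcorr, hcorr, ← integral_sub (hint N _ hy) (hint N _ hxm)]
            rw [L1.norm_eq_integral_norm, ← integral_const_mul]
            have e5 : ∫ ω, B * ‖(y - x m : Lp ℝ 1 μ) ω‖ ∂μ =
                ∫ ω, B * ‖(y - x m : Lp ℝ 1 μ) (zp T (t N a) ω)‖ ∂μ := by
              rw [integral_const_mul, integral_const_mul]
              congr 1
              rw [← integral_map (φ := zp T (t N a)) (mp_zp hT _).measurable.aemeasurable
                (f := fun ω => ‖(y - x m : Lp ℝ 1 μ) ω‖)]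
              · rw [(mp_zp hT (t N a)).map_eq]
              · rw [(mp_zp hT (t N a)).map_eq]
                exact (Lp.aestronglyMeasurable _).norm
            rw [e5]
            have e6 : ∀ᵐ ω ∂μ, (y - x m : Lp ℝ 1 μ) (zp T (t N a) ω) =
                y (zp T (t N a) ω) - x m (zp T (t N a) ω) :=
              (mp_zp hT (t N a)).quasiMeasurePreserving.ae (Lp.coeFn_sub y (x m))
            rw [← Real.norm_eq_abs]
            apply norm_integral_le_of_norm_le
            · apply Integrable.const_mul
              exact ((mp_zp hT (t N a)).integrable_comp_of_integrable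
                (L1.integrable_coeFn (y - x m))).norm
            · filter_upwards [hB N, e6] with ω h7 h8
              rw [← sub_mul, norm_mul, h8, mul_comm]
              apply mul_le_mul_of_nonneg_right _ (norm_nonneg _)
              rw [Real.norm_eq_abs]
              exact h7
          have hdiff2 : ∀ m, |(∫ ω, y ω ∂μ) * L - (∫ ω, x m ω ∂μ) * L| ≤ |L| * ‖y - x m‖ := by
            intro m
            rw [← sub_mul, abs_mul, mul_comm]
            apply mul_le_mul_of_nonneg_left _ (abs_nonneg _)
            rw [← integral_sub (L1.integrable_coeFn y) (L1.integrable_coeFn (x m)),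
              L1.norm_eq_integral_norm]
            have : ∫ ω, (y ω - x m ω) ∂μ = ∫ ω, (y - x m : Lp ℝ 1 μ) ω ∂μ := by
              apply integral_congr_ae
              filter_upwards [Lp.coeFn_sub y (x m)] with ω h
              rw [h]; rfl
            rw [this, ← Real.norm_eq_abs]
            exact norm_integral_le_integral_norm (fun ω => (y - x m : Lp ℝ 1 μ) ω)
          rw [Metric.tendsto_atTop]
          intro ε hε
          have h9 : Tendsto (fun m => (B + |L|) * ‖y - x m‖) atTop (𝓝 0) := by
            have : Tendsto (fun m => ‖y - x m‖) atTop (𝓝 0) := by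
              have := (tendsto_const_nhds (x := y)).sub hxy
              simpa using this.norm
            simpa using this.const_mul (B + |L|)
          obtain ⟨m, hm⟩ := (h9.eventually (gt_mem_nhds (half_pos hε))).exists
          obtain ⟨N₀, hN₀⟩ := Metric.tendsto_atTop.1 (hx m) (ε/2) (half_pos hε)
          refine ⟨N₀, fun N hN => ?_⟩
          have h10 := hN₀ N hN
          rw [Real.dist_eq] at h10 ⊢
          have h11 := hdiff m N
          have h12 := hdiff2 m
          have : corr μ T (t N) (Function.update f a (y : Ω → ℝ)) - (∫ ω, y ω ∂μ) * L =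
            (corr μ T (t N) (Function.update f a (y : Ω → ℝ)) -
              corr μ T (t N) (Function.update f a (x m : Ω → ℝ))) +
            (corr μ T (t N) (Function.update f a (x m : Ω → ℝ)) - (∫ ω, x m ω ∂μ) * L) -
            ((∫ ω, y ω ∂μ) * L - (∫ ω, x m ω ∂μ) * L) := by ring
          rw [this]
          calc _ ≤ |(corr μ T (t N) (Function.update f a (y : Ω → ℝ)) -
              corr μ T (t N) (Function.update f a (x m : Ω → ℝ))) +
            (corr μ T (t N) (Function.update f a (x m : Ω → ℝ)) - (∫ ω, x m ω ∂μ) * L)| +
            |(∫ ω, y ω ∂μ) * L - (∫ ω, x m ω ∂μ) * L| := abs_sub _ _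
            _ ≤ |(corr μ T (t N) (Function.update f a (y : Ω → ℝ)) -
              corr μ T (t N) (Function.update f a (x m : Ω → ℝ)))| +
            |(corr μ T (t N) (Function.update f a (x m : Ω → ℝ)) - (∫ ω, x m ω ∂μ) * L)| +
            |(∫ ω, y ω ∂μ) * L - (∫ ω, x m ω ∂μ) * L| := by
              gcongr; exact abs_add_le _ _
            _ ≤ B * ‖y - x m‖ +
            |(corr μ T (t N) (Function.update f a (x m : Ω → ℝ)) - (∫ ω, x m ω ∂μ) * L)| +
            |L| * ‖y - x m‖ := by gcongr
            _ < ε := by
              have : B * ‖y - x m‖ + |L| * ‖y - x m‖ = (B + |L|) * ‖y - x m‖ := by ring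
              linarith
        · intro g g' hgg' _ h3
          have e3 : ∀ N, corr μ T (t N) (Function.update f a g') =
              corr μ T (t N) (Function.update f a g) := by
            intro N
            apply corr_congr hT
            intro i
            by_cases hia : i = a
            · subst hia; simpa using hgg'.symm
            · rw [Function.update_of_ne hia, Function.update_of_ne hia]
          simp only [e3]
          rw [integral_congr_ae hgg'.symm]
          exact h3
      have h5 := main (f a) hfa.integrable
      rw [Function.update_eq_self] at h5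
      rw [← Finset.mul_prod_erase Finset.univ _ (Finset.mem_univ a)]
      exact h5
  exact key Finset.univ f (fun i _ => hf i) (fun i hi => absurd (Finset.mem_univ i) hi)

end Vale.Agent.P102
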