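import Vale.Agent.P102.Star

open MeasureTheory Filter Topology
open scoped ENNReal InnerProductSpace

namespace Vale.Agent.P102

variable {Ω : Type*} [MeasurableSpace Ω] {μ : Measure Ω} [IsProbabilityMeasure μ] {T : Ω ≃ᵐ Ω}

set_option linter.unusedSectionVars false

/-- operator version -/
def IsCLim (μ : Measure Ω) (T : Ω ≃ᵐ Ω) (Q : Lp ℝ 2 μ →L[ℝ] Lp ℝ 2 μ) : Prop :=
  ∃ (q : ℕ) (S : ℕ → Ω ≃ᵐ Ω) (hS : ∀ j, MeasurePreserving (S j) μ μ), 0 < q ∧
    (∀ j, ∀ᵐ ω ∂μ, S j (zp T q ω) = zp T q (S j ω)) ∧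
    ∀ f g : Lp ℝ 2 μ,
      Tendsto (fun j => inner ℝ (Lp.compMeasurePreserving (S j) (hS j) f) g) atTop
        (𝓝 (inner ℝ (Q f) g))

lemma comm_zp (hT : MeasurePreserving T μ μ) {q : ℕ} {S : Ω → Ω}
    (hc : ∀ᵐ ω ∂μ, S (zp T q ω) = zp T q (S ω)) (a : ℤ) :
    ∀ᵐ ω ∂μ, S (zp T (q * a) ω) = zp T (q * a) (S ω) := by
  induction a using Int.induction_on with
  | zero => filter_upwards with ω; simp [zp_zero]
  | succ a ih =>
    have h1 := (mp_zp hT (q * a)).quasiMeasurePreserving.ae hc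
    filter_upwards [h1, ih] with ω h2 h3
    have e : (q : ℤ) * (a + 1) = q + q * a := by ring
    rw [e, zp_add, h2, h3, ← zp_add]
  | pred a ih =>
    have h1 := (mp_zp hT (q * (-a - 1))).quasiMeasurePreserving.ae hc
    filter_upwards [h1, ih] with ω h2 h3
    rw [← zp_add] at h2
    have e : (q : ℤ) + q * (-a - 1) = q * -a := by ring
    rw [e, h3] at h2
    have h4 := congrArg (zp T (-q)) h2
    rw [← zp_add, ← zp_add] at h4
    have e2 : -(q : ℤ) + q * -a = q * (-a - 1) := by ring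
    have e3 : -(q : ℤ) + q = 0 := by ring
    rw [e2, e3, zp_zero] at h4
    exact h4.symm

lemma integral_comp_mp {S : Ω → Ω} (hS : MeasurePreserving S μ μ) (F : Ω → ℝ)
    (hF : AEStronglyMeasurable F μ) : ∫ ω, F (S ω) ∂μ = ∫ ω, F ω ∂μ := by
  rw [← integral_map (φ := S) hS.measurable.aemeasurable (by rw [hS.map_eq]; exact hF), hS.map_eq]

/-- Koopman operator of a measure preserving map -/
noncomputable def Km {S : Ω → Ω} (hS : MeasurePreserving S μ μ) : Lp ℝ 2 μ →L[ℝ] Lp ℝ 2 μ :=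
  (Lp.compMeasurePreservingₗᵢ ℝ S hS).toContinuousLinearMap

lemma Km_coe {S : Ω → Ω} (hS : MeasurePreserving S μ μ) (f : Lp ℝ 2 μ) :
    (Km hS f : Ω → ℝ) =ᵐ[μ] fun ω => f (S ω) :=
  Lp.coeFn_compMeasurePreserving f hS

lemma Km_norm {S : Ω → Ω} (hS : MeasurePreserving S μ μ) (f : Lp ℝ 2 μ) :
    ‖Km hS f‖ = ‖f‖ := Lp.norm_compMeasurePreserving f hS

lemma Km_eb {S : Ω → Ω} (hS : MeasurePreserving S μ μ) (f : Lp ℝ 2 μ) (hf : EB f) :
    EB (Km hS f) := (hf.comp hS).congr (Km_coe hS f).symm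

lemma Km_comp {S S' S'' : Ω → Ω} (hS : MeasurePreserving S μ μ) (hS' : MeasurePreserving S' μ μ)
    (hS'' : MeasurePreserving S'' μ μ) (h : ∀ᵐ ω ∂μ, S'' ω = S (S' ω)) (f : Lp ℝ 2 μ) :
    Km hS' (Km hS f) = Km hS'' f := by
  apply Lp.ext
  have h1 := hS'.quasiMeasurePreserving.ae (Km_coe hS f)
  filter_upwards [Km_coe hS' (Km hS f), Km_coe hS'' f, h, h1] with ω h2 h3 h4 h5
  rw [h2, h3, h5, h4]

lemma Km_inv {S S' : Ω → Ω} (hS : MeasurePreserving S μ μ) (hS' : MeasurePreserving S' μ μ)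
    (h : ∀ᵐ ω ∂μ, S (S' ω) = ω) (f : Lp ℝ 2 μ) :
    Km hS' (Km hS f) = f := by
  apply Lp.ext
  have h1 := hS'.quasiMeasurePreserving.ae (Km_coe hS f)
  filter_upwards [Km_coe hS' (Km hS f), h, h1] with ω h2 h4 h5
  rw [h2, h5, h4]

lemma Km_adj {S S' : Ω → Ω} (hS : MeasurePreserving S μ μ) (hS' : MeasurePreserving S' μ μ)
    (h : ∀ᵐ ω ∂μ, S' (S ω) = ω) (f g : Lp ℝ 2 μ) :
    ⟪Km hS f, g⟫_ℝ = ⟪f, Km hS' g⟫_ℝ := by
  have h1 : Km hS (Km hS' g) = g := Km_inv hS' hS h g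
  conv_lhs => rw [← h1]
  exact LinearIsometry.inner_map_map (Lp.compMeasurePreservingₗᵢ ℝ S hS) f (Km hS' g)

/-- weak limits of contractions of `L^∞` preserve essential bounds -/
lemma eb_of_weak {x : ℕ → Lp ℝ 2 μ} {y : Lp ℝ 2 μ} {C : ℝ} (hC : 0 ≤ C)
    (hx : ∀ j, ∀ᵐ ω ∂μ, |x j ω| ≤ C)
    (hw : ∀ g : Lp ℝ 2 μ, Tendsto (fun j => ⟪x j, g⟫_ℝ) atTop (𝓝 ⟪y, g⟫_ℝ)) :
    EB y := by
  refine ⟨Lp.aestronglyMeasurable y, C, hC, ?_⟩
  -- test against indicators
  have key : ∀ (s : Set Ω), MeasurableSet s → |∫ ω in s, y ω ∂μ| ≤ C * μ.real s := by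
    intro s hs
    have h1 := (hw (indicatorConstLp 2 hs (measure_ne_top μ s) (1:ℝ))).abs
    have e : ∀ z : Lp ℝ 2 μ, ⟪z, indicatorConstLp 2 hs (measure_ne_top μ s) (1:ℝ)⟫_ℝ =
        ∫ ω in s, z ω ∂μ := by
      intro z
      rw [real_inner_comm, L2.inner_indicatorConstLp_one]
    simp only [e] at h1
    refine le_of_tendsto h1 (Eventually.of_forall fun j => ?_)
    have h2 : ‖∫ ω in s, x j ω ∂μ‖ ≤ C * μ.real s :=
      norm_setIntegral_le_of_norm_le_const_ae' (measure_lt_top μ s)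
        ((hx j).mono fun ω h _ => h)
    simpa [Real.norm_eq_abs] using h2
  have hint : Integrable (y : Ω → ℝ) μ := (Lp.memLp y).integrable (by norm_num)
  have h1 : ∀ᵐ ω ∂μ, y ω ≤ C := by
    have := ae_le_of_forall_setIntegral_le hint (integrable_const C) (fun s hs _ => by
      have := (abs_le.1 (key s hs)).2
      simpa [mul_comm] using this)
    exact this
  have h2 : ∀ᵐ ω ∂μ, -C ≤ y ω := by
    have := ae_le_of_forall_setIntegral_le (integrable_const (-C)) hint (fun s hs _ => by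
      have := (abs_le.1 (key s hs)).1
      simpa [mul_comm] using this)
    exact this
  filter_upwards [h1, h2] with ω h3 h4
  exact abs_le.2 ⟨h4, h3⟩

lemma exists_sys (hT : MeasurePreserving T μ μ) {n : ℕ} (t : ℕ → Fin (n+1) → ℤ)
    (Q : Lp ℝ 2 μ →L[ℝ] Lp ℝ 2 μ) (hQ : IsCLim μ T Q) :
    ∃ (W W' : Fin (n+1) → ℕ → Lp ℝ 2 μ →L[ℝ] Lp ℝ 2 μ)
      (Qf : Fin (n+1) → Lp ℝ 2 μ →L[ℝ] Lp ℝ 2 μ), Sys T t W W' Qf ∧ Qf 0 = Q := by
  classical
  obtain ⟨q, S, hS, hq, hcomm, hlim⟩ := hQ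
  have : NeZero q := ⟨hq.ne'⟩
  -- residues
  obtain ⟨z, hz⟩ := Ultrafilter.eq_pure_of_finite
    ((hyperfilter ℕ).map (fun N => fun i : Fin (n+1) => ((t N i - t N 0 : ℤ) : ZMod q)))
  have hres : ∀ᶠ N in (hyperfilter ℕ : Filter ℕ),
      (fun i : Fin (n+1) => ((t N i - t N 0 : ℤ) : ZMod q)) = z := by
    have : {z} ∈ (hyperfilter ℕ).map
        (fun N => fun i : Fin (n+1) => ((t N i - t N 0 : ℤ) : ZMod q)) := by
      rw [hz]; exact Ultrafilter.mem_pure.2 rfl
    exact this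
  have hz0 : z 0 = 0 := by
    obtain ⟨N, hN⟩ := hres.exists
    have := congrFun hN 0
    simpa using this.symm
  set d : Fin (n+1) → ℤ := fun i => ((z i).val : ℤ) with hd
  have hd0 : d 0 = 0 := by simp [hd, hz0]
  have hdiv : ∀ᶠ N in (hyperfilter ℕ : Filter ℕ), ∀ i, ∃ a : ℤ, t N i = t N 0 + d i + q * a := by
    filter_upwards [hres] with N hN i
    have h1 := congrFun hN i
    have h2 : ((t N i - t N 0 - d i : ℤ) : ZMod q) = 0 := by
      rw [Int.cast_sub, h1]
      simp [hd]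
    rw [ZMod.intCast_zmod_eq_zero_iff_dvd] at h2
    obtain ⟨a, ha⟩ := h2
    exact ⟨a, by linarith⟩
  have hSs : ∀ j, MeasurePreserving (S j).symm μ μ := fun j => (hS j).symm (S j)
  -- maps
  have mpA : ∀ i j, MeasurePreserving (fun ω => zp T (d i) (S j (zp T (-d i) ω))) μ μ :=
    fun i j => (mp_zp hT (d i)).comp ((hS j).comp (mp_zp hT (-d i)))
  have mpB : ∀ i j, MeasurePreserving (fun ω => zp T (d i) ((S j).symm (zp T (-d i) ω))) μ μ :=
    fun i j => (mp_zp hT (d i)).comp ((hSs j).comp (mp_zp hT (-d i)))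
  have cancel1 : ∀ (m : ℤ) ω, zp T m (zp T (-m) ω) = ω := by
    intro m ω; rw [← zp_add, add_neg_cancel, zp_zero]
  have cancel2 : ∀ (m : ℤ) ω, zp T (-m) (zp T m ω) = ω := by
    intro m ω; rw [← zp_add, neg_add_cancel, zp_zero]
  have KU : ∀ i j f, Km (mpA i j) f = Km (mp_zp hT (-d i)) (Km (hS j) (Km (mp_zp hT (d i)) f)) := by
    intro i j f
    rw [Km_comp (mp_zp hT (d i)) (hS j) ((mp_zp hT (d i)).comp (hS j))
      (by filter_upwards with ω; rfl)]
    rw [Km_comp _ (mp_zp hT (-d i)) (mpA i j) (by filter_upwards with ω; rfl)]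
  have Kadj : ∀ i (f g : Lp ℝ 2 μ), ⟪Km (mp_zp hT (-d i)) f, g⟫_ℝ = ⟪f, Km (mp_zp hT (d i)) g⟫_ℝ := by
    intro i f g
    exact Km_adj _ _ (by filter_upwards with ω; exact cancel1 _ _) f g
  have Kadj' : ∀ i (f g : Lp ℝ 2 μ), ⟪Km (mp_zp hT (d i)) f, g⟫_ℝ = ⟪f, Km (mp_zp hT (-d i)) g⟫_ℝ := by
    intro i f g
    exact Km_adj _ _ (by filter_upwards with ω; exact cancel2 _ _) f g
  have hQeb : ∀ u, EB u → EB (Q u) := by
    intro u hu
    obtain ⟨_, C, hC, hC2⟩ := hu
    refine eb_of_weak (x := fun j => Km (hS j) u) hC (fun j => ?_) (fun g => hlim u g)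
    filter_upwards [Km_coe (hS j) u, (hS j).quasiMeasurePreserving.ae hC2] with ω h1 h2
    rw [h1]; exact h2
  have hlim' : ∀ f g : Lp ℝ 2 μ, Tendsto (fun j => ⟪Km (hSs j) f, g⟫_ℝ) atTop
      (𝓝 ⟪ContinuousLinearMap.adjoint Q f, g⟫_ℝ) := by
    intro f g
    rw [ContinuousLinearMap.adjoint_inner_left]
    have h1 := hlim g f
    rw [real_inner_comm]
    refine h1.congr fun j => ?_
    rw [real_inner_comm]
    exact (Km_adj (hSs j) (hS j) (by filter_upwards with ω; simp) f g).symm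
  have hQeb' : ∀ u, EB u → EB (ContinuousLinearMap.adjoint Q u) := by
    intro u hu
    obtain ⟨_, C, hC, hC2⟩ := hu
    refine eb_of_weak (x := fun j => Km (hSs j) u) hC (fun j => ?_) (fun g => hlim' u g)
    filter_upwards [Km_coe (hSs j) u, (hSs j).quasiMeasurePreserving.ae hC2] with ω h1 h2
    rw [h1]; exact h2
  refine ⟨fun i j => Km (mpA i j), fun i j => Km (mpB i j),
    fun i => Km (mp_zp hT (-d i)) ∘L (Q ∘L Km (mp_zp hT (d i))), ?_, ?_⟩
  · have hadjQ : ∀ i u, ContinuousLinearMap.adjoint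
        (Km (mp_zp hT (-d i)) ∘L (Q ∘L Km (mp_zp hT (d i)))) u =
        Km (mp_zp hT (-d i)) (ContinuousLinearMap.adjoint Q (Km (mp_zp hT (d i)) u)) := by
      intro i u
      apply ext_inner_right ℝ
      intro v
      rw [ContinuousLinearMap.adjoint_inner_left, Kadj, ContinuousLinearMap.adjoint_inner_left]
      simp only [ContinuousLinearMap.comp_apply]
      rw [real_inner_comm, Kadj, real_inner_comm]
    refine ⟨?_, ?_, ?_, ?_, ?_, ?_, ?_, ?_, ?_, ?_⟩
    · intro i j u hu; exact Km_eb _ _ hu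
    · intro i j u hu; exact Km_eb _ _ hu
    · intro i u hu; exact Km_eb _ _ (hQeb _ (Km_eb _ _ hu))
    · intro i u hu
      rw [hadjQ]
      exact Km_eb _ _ (hQeb' _ (Km_eb _ _ hu))
    · intro i j u
      exact Km_inv _ _ (by filter_upwards with ω; simp [cancel2, cancel1]) u
    · intro i j u
      exact Km_inv _ _ (by filter_upwards with ω; simp [cancel2, cancel1]) u
    · intro i j f g
      exact Km_adj _ _ (by filter_upwards with ω; simp [cancel2, cancel1]) f g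
    · intro i j u; exact Km_norm _ _
    · intro i f g
      simp only [KU, ContinuousLinearMap.comp_apply, Kadj]
      exact hlim _ _
    · intro j u hu
      have h1 := tendsto_cf hT t 0 (u := fun i => Km (mpA i j) (u i))
        (fun i _ => Km_eb _ _ (hu i))
      have h2 := tendsto_cf hT t 0 (u := u) (fun i _ => hu i)
      refine tendsto_nhds_unique h1 (h2.congr' ?_)
      filter_upwards [hdiv] with N hN
      choose a ha using hN
      -- both are integrals
      have hmpS := (hS j)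
      have hae : ∀ i, ∀ᵐ ω ∂μ, S j (zp T (q * a i) ω) = zp T (q * a i) (S j ω) :=
        fun i => comm_zp hT (hcomm j) (a i)
      have hF : AEStronglyMeasurable (fun ω => ∏ i, u i (zp T (t N i - t N 0) ω)) μ := by
        have : BM μ (fun ω => ∏ i, u i (zp T (t N i - t N 0) ω)) :=
          BM.prod _ fun i _ => (hu i).comp (mp_zp hT _)
        exact this.1
      have e1 : Ic T (t N) u = ∫ ω, ∏ i, u i (zp T (t N i - t N 0) ω) ∂μ := by
        have h4 := integral_comp_mp (mp_zp hT (t N 0)) _ hF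
        rw [← h4]
        unfold Ic corr
        congr 1
        funext ω
        apply Finset.prod_congr rfl
        intro i _
        rw [← zp_add]
        congr 2
        ring
      have e2 : Ic T (t N) (fun i => Km (mpA i j) (u i)) =
          ∫ ω, ∏ i, u i (zp T (t N i - t N 0) (S j (zp T (t N 0) ω))) ∂μ := by
        unfold Ic corr
        apply integral_congr_ae
        have h5 : ∀ i, ∀ᵐ ω ∂μ, (Km (mpA i j) (u i)) (zp T (t N i) ω) =
            u i (zp T (d i) (S j (zp T (-d i) (zp T (t N i) ω)))) := fun i =>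
          (mp_zp hT (t N i)).quasiMeasurePreserving.ae (Km_coe (mpA i j) (u i))
        have h6 : ∀ i, ∀ᵐ ω ∂μ, S j (zp T (q * a i) (zp T (t N 0) ω)) =
            zp T (q * a i) (S j (zp T (t N 0) ω)) := fun i =>
          (mp_zp hT (t N 0)).quasiMeasurePreserving.ae (hae i)
        filter_upwards [ae_all_iff.2 h5, ae_all_iff.2 h6] with ω h7 h8
        apply Finset.prod_congr rfl
        intro i _
        rw [h7 i]
        have e3 : zp T (-d i) (zp T (t N i) ω) = zp T (q * a i) (zp T (t N 0) ω) := by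
          rw [← zp_add, ← zp_add]
          congr 1
          rw [ha i]; ring
        rw [e3, h8 i, ← zp_add]
        congr 2
        rw [ha i]; ring
      have e3 : ∫ ω, ∏ i, u i (zp T (t N i - t N 0) (S j (zp T (t N 0) ω))) ∂μ =
          ∫ ω, ∏ i, u i (zp T (t N i - t N 0) ω) ∂μ := by
        have hmp : MeasurePreserving (fun ω => S j (zp T (t N 0) ω)) μ μ :=
          (hS j).comp (mp_zp hT (t N 0))
        exact integral_comp_mp hmp _ hF
      rw [e1, e2, e3]
  · have hK0 : ∀ f : Lp ℝ 2 μ, Km (mp_zp hT (d 0)) f = f := by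
      intro f
      apply Lp.ext
      filter_upwards [Km_coe (mp_zp hT (d 0)) f] with ω h1
      rw [h1, hd0, zp_zero]
    have hK0' : ∀ f : Lp ℝ 2 μ, Km (mp_zp hT (-d 0)) f = f := by
      intro f
      apply Lp.ext
      filter_upwards [Km_coe (mp_zp hT (-d 0)) f] with ω h1
      rw [h1, hd0, neg_zero, zp_zero]
    ext1 f
    simp only [ContinuousLinearMap.comp_apply]
    rw [hK0, hK0']

end Vale.Agent.P102
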