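import Mathlib

/-!
Definitions for the multiple-mixing problem.
-/

open MeasureTheory Filter Topology

namespace Vale.Agent.P102

variable {Ω : Type*} [MeasurableSpace Ω]

/-- The integer power `T ^ n` of an invertible bimeasurable map, as a function. -/
def zp (T : Ω ≃ᵐ Ω) (n : ℤ) : Ω → Ω := ⇑((T.toEquiv : Equiv.Perm Ω) ^ n)

/-- `T` is mixing of order `k` for `μ`: for measurable `A₁, …, A_k`,
`μ (⋂ i, T ^ (-t i) (A i)) → ∏ i, μ (A i)` as all gaps `t j - t i` (`i < j`) tend to infinity. -/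
def MixingOfOrder (μ : Measure Ω) (T : Ω ≃ᵐ Ω) (k : ℕ) : Prop :=
  ∀ A : Fin k → Set Ω, (∀ i, MeasurableSet (A i)) → ∀ ε : ℝ, 0 < ε →
    ∃ N : ℤ, ∀ t : Fin k → ℤ, (∀ i j, i < j → N ≤ t j - t i) →
      |μ.real (⋂ i, zp T (t i) ⁻¹' A i) - ∏ i, μ.real (A i)| < ε

/-- `Q` maps square-integrable functions to square-integrable functions and is the weak limit in
`L²(μ)` of the Koopman operators `f ↦ f ∘ S j`. -/
def IsWeakLimit (μ : Measure Ω) (S : ℕ → Ω ≃ᵐ Ω) (Q : (Ω → ℝ) → Ω → ℝ) : Prop :=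
  ∀ f : Ω → ℝ, MemLp f 2 μ → MemLp (Q f) 2 μ ∧ ∀ g : Ω → ℝ, MemLp g 2 μ →
    Tendsto (fun j => ∫ ω, f (S j ω) * g ω ∂μ) atTop (𝓝 (∫ ω, Q f ω * g ω ∂μ))

/-- `Q` and `R` are the weak limits of the Koopman operators of `S j` and of `(S j)⁻¹` for some
sequence of invertible measure-preserving maps `S j` all of which commute (almost everywhere) with
one fixed positive power `T ^ q` of `T`. (So `R` is the adjoint of `Q` in `L²(μ)`.) -/
def IsCentralizerLimit (μ : Measure Ω) (T : Ω ≃ᵐ Ω) (Q R : (Ω → ℝ) → Ω → ℝ) : Prop :=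
  ∃ (q : ℕ) (S : ℕ → Ω ≃ᵐ Ω), 0 < q ∧ (∀ j, MeasurePreserving (S j) μ μ) ∧
    (∀ j, ∀ᵐ ω ∂μ, S j (zp T q ω) = zp T q (S j ω)) ∧
    IsWeakLimit μ S Q ∧ IsWeakLimit μ (fun j => (S j).symm) R

end Vale.Agent.P102
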