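import Vale.Agent.P102.Basic

open MeasureTheory Filter Topology
open scoped ENNReal InnerProductSpace

namespace Vale.Agent.P102

variable {Ω : Type*} [MeasurableSpace Ω] {μ : Measure Ω} [IsProbabilityMeasure μ] {T : Ω ≃ᵐ Ω}

set_option linter.unusedSectionVars false

/-- abstract: weakly null families are killed by Gram-bounded functionals -/
lemma gram_null (φ : ℕ → ℝ) (G : ℕ → ℕ → ℝ) (C M : ℝ) (hC : 0 ≤ C)
    (hG : ∀ (A : Finset ℕ) (s : ℕ → ℝ), (∑ a ∈ A, s a * φ a) ^ 2 ≤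
      C * ∑ a ∈ A, ∑ b ∈ A, s a * s b * G a b)
    (hsymm : ∀ a b, G a b = G b a)
    (hM : ∀ a, G a a ≤ M) (h0 : ∀ a, Tendsto (fun b => G a b) atTop (𝓝 0)) :
    Tendsto φ atTop (𝓝 0) := by
  classical
  by_contra hcon
  have : ∃ δ > 0, ∃ᶠ a in atTop, δ ≤ |φ a| := by
    by_contra h
    push Not at h
    apply hcon
    rw [Metric.tendsto_atTop]
    intro ε hε
    have h1 := h ε hε
    obtain ⟨N, hN⟩ := eventually_atTop.1 h1
    exact ⟨N, fun n hn => by rw [Real.dist_eq, sub_zero]; exact hN n hn⟩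
  obtain ⟨δ, hδ, hfreq⟩ := this
  have hM0 : 0 ≤ |M| := abs_nonneg M
  -- choose K
  obtain ⟨K, hK⟩ := exists_nat_gt (C * (|M| + 1) / δ ^ 2)
  have hKpos : 0 < (K : ℝ) := lt_of_le_of_lt (by positivity) hK
  -- build a finite set
  have build : ∀ m : ℕ, ∃ A : Finset ℕ, A.card = m ∧ (∀ a ∈ A, δ ≤ |φ a|) ∧
      ∀ a ∈ A, ∀ b ∈ A, a ≠ b → |G a b| ≤ 1 / K := by
    intro m
    induction m with
    | zero => exact ⟨∅, rfl, by simp, by simp⟩
    | succ m ih =>
      obtain ⟨A, hA1, hA2, hA3⟩ := ih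
      have ev1 : ∀ᶠ b in atTop, ∀ a ∈ A, |G a b| ≤ 1 / K := by
        rw [Finset.eventually_all]
        intro a _
        have := (h0 a).abs
        rw [abs_zero] at this
        have hlt := this.eventually (gt_mem_nhds (show (0:ℝ) < 1 / K by positivity))
        filter_upwards [hlt] with b hb
        exact le_of_lt hb
      have ev2 : ∀ᶠ b in atTop, b ∉ A := by
        filter_upwards [eventually_gt_atTop (A.sup id)] with b hb hbA
        exact absurd (Finset.le_sup (f := id) hbA) (not_le.2 hb)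
      obtain ⟨b, hb1, hb2, hb3⟩ := (hfreq.and_eventually (ev1.and ev2)).exists
      refine ⟨insert b A, ?_, ?_, ?_⟩
      · rw [Finset.card_insert_of_notMem hb3, hA1]
      · intro a ha
        rcases Finset.mem_insert.1 ha with rfl | ha
        · exact hb1
        · exact hA2 a ha
      · intro a ha c hc hac
        rcases Finset.mem_insert.1 ha with ha | ha <;> rcases Finset.mem_insert.1 hc with hc | hc
        · exact absurd (ha.trans hc.symm) hac
        · rw [ha, hsymm]; exact hb2 c hc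
        · rw [hc]; exact hb2 a ha
        · exact hA3 a ha c hc hac
  obtain ⟨A, hA1, hA2, hA3⟩ := build K
  have h1 := hG A (fun a => SignType.sign (φ a))
  have h2 : (K : ℝ) * δ ≤ ∑ a ∈ A, (SignType.sign (φ a) : ℝ) * φ a := by
    rw [← hA1, ← nsmul_eq_mul]
    apply Finset.card_nsmul_le_sum
    intro a ha
    rw [sign_mul_self]
    exact hA2 a ha
  have hs : ∀ a, |((SignType.sign (φ a) : ℝ))| ≤ 1 := by
    intro a
    rcases lt_trichotomy (φ a) 0 with h | h | h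
    · simp [h]
    · simp [h]
    · simp [h]
  have h3 : ∑ a ∈ A, ∑ b ∈ A, (SignType.sign (φ a) : ℝ) * (SignType.sign (φ b) : ℝ) * G a b ≤
      K * (|M| + 1) := by
    rw [← hA1, ← nsmul_eq_mul]
    apply Finset.sum_le_card_nsmul
    intro a ha
    have h4 : ∀ b ∈ A, (SignType.sign (φ a) : ℝ) * (SignType.sign (φ b) : ℝ) * G a b ≤
        (if b = a then |M| else 0) + 1 / K := by
      intro b hb
      by_cases hab : b = a
      · subst hab
        rw [if_pos rfl]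
        have hpos : (0:ℝ) < 1 / K := by positivity
        have h5 : (SignType.sign (φ b) : ℝ) * (SignType.sign (φ b) : ℝ) * G b b ≤ |M| := by
          rcases lt_trichotomy (φ b) 0 with h | h | h
          · simp [h]; exact (hM b).trans (le_abs_self _)
          · simp [h]
          · simp [h]; exact (hM b).trans (le_abs_self _)
        linarith
      · rw [if_neg hab, zero_add]
        calc (SignType.sign (φ a) : ℝ) * (SignType.sign (φ b) : ℝ) * G a b ≤
            |(SignType.sign (φ a) : ℝ) * (SignType.sign (φ b) : ℝ) * G a b| := le_abs_self _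
          _ = |(SignType.sign (φ a) : ℝ)| * |(SignType.sign (φ b) : ℝ)| * |G a b| := by
            rw [abs_mul, abs_mul]
          _ ≤ 1 * 1 * (1 / K) := by
            gcongr
            · exact hs a
            · exact hs b
            · exact hA3 a ha b hb (Ne.symm hab)
          _ = 1 / K := by ring
    refine (Finset.sum_le_sum h4).trans ?_
    rw [Finset.sum_add_distrib, Finset.sum_ite_eq' A a, if_pos ha, Finset.sum_const, hA1,
      nsmul_eq_mul]
    rw [mul_one_div_cancel (ne_of_gt hKpos)]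
  have h6 : ((K:ℝ) * δ) ^ 2 ≤ C * (K * (|M| + 1)) := by
    calc ((K:ℝ) * δ) ^ 2 ≤ (∑ a ∈ A, (SignType.sign (φ a) : ℝ) * φ a) ^ 2 := by
          apply pow_le_pow_left₀ (by positivity) h2
      _ ≤ _ := h1
      _ ≤ _ := mul_le_mul_of_nonneg_left h3 hC
  have h7 : (K:ℝ) * δ ^ 2 ≤ C * (|M| + 1) := by
    have : (K:ℝ) * (K * δ ^ 2) ≤ K * (C * (|M| + 1)) := by nlinarith
    exact le_of_mul_le_mul_left this hKpos
  rw [div_lt_iff₀ (by positivity)] at hK
  linarith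

/-- `L²` elements which are essentially bounded -/
def EB (f : Lp ℝ 2 μ) : Prop := BM μ (f : Ω → ℝ)

/-- correlation of `L²` elements -/
noncomputable def Ic {k : ℕ} (T : Ω ≃ᵐ Ω) (s : Fin k → ℤ) (u : Fin k → Lp ℝ 2 μ) : ℝ :=
  corr μ T s (fun i => (u i : Ω → ℝ))

/-- Koopman operator of `T ^ m` -/
noncomputable def Kp (hT : MeasurePreserving T μ μ) (m : ℤ) : Lp ℝ 2 μ →ₗᵢ[ℝ] Lp ℝ 2 μ :=
  Lp.compMeasurePreservingₗᵢ ℝ (zp T m) (mp_zp hT m)

lemma Kp_coe (hT : MeasurePreserving T μ μ) (m : ℤ) (f : Lp ℝ 2 μ) :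
    (Kp hT m f : Ω → ℝ) =ᵐ[μ] fun ω => f (zp T m ω) :=
  Lp.coeFn_compMeasurePreserving f (mp_zp hT m)

/-- the product over all coordinates except `p`, as a function -/
noncomputable def vf {n : ℕ} (T : Ω ≃ᵐ Ω) (s : Fin (n+1) → ℤ) (p : Fin (n+1))
    (u : Fin (n+1) → Lp ℝ 2 μ) : Ω → ℝ :=
  fun ω => ∏ i : Fin n, u (p.succAbove i) (zp T (s (p.succAbove i)) ω)

lemma vf_BM {n : ℕ} (hT : MeasurePreserving T μ μ) (s : Fin (n+1) → ℤ) (p : Fin (n+1))
    {u : Fin (n+1) → Lp ℝ 2 μ} (hu : ∀ i, i ≠ p → EB (u i)) : BM μ (vf T s p u) := by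
  apply BM.prod
  intro i _
  exact (hu _ (Fin.succAbove_ne p i)).comp (mp_zp hT _)

lemma BM.memLp {f : Ω → ℝ} (hf : BM μ f) : MemLp f 2 μ := by
  obtain ⟨hf1, C, hC, hf2⟩ := hf
  exact MemLp.of_bound hf1 C (by simpa [Real.norm_eq_abs] using hf2)

open Classical in
/-- a function as an element of `L²` (junk value `0`) -/
noncomputable def toL2 (μ : Measure Ω) (f : Ω → ℝ) : Lp ℝ 2 μ :=
  if h : MemLp f 2 μ then h.toLp f else 0

lemma toL2_coe {f : Ω → ℝ} (h : MemLp f 2 μ) : (toL2 μ f : Ω → ℝ) =ᵐ[μ] f := by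
  unfold toL2
  rw [dif_pos h]
  exact h.coeFn_toLp

/-- the product over all coordinates except `p`, in `L²` -/
noncomputable def Vv {n : ℕ} (T : Ω ≃ᵐ Ω) (s : Fin (n+1) → ℤ) (p : Fin (n+1))
    (u : Fin (n+1) → Lp ℝ 2 μ) : Lp ℝ 2 μ := toL2 μ (vf T s p u)

lemma Vv_coe {n : ℕ} (hT : MeasurePreserving T μ μ) (s : Fin (n+1) → ℤ) (p : Fin (n+1))
    {u : Fin (n+1) → Lp ℝ 2 μ} (hu : ∀ i, i ≠ p → EB (u i)) :
    (Vv T s p u : Ω → ℝ) =ᵐ[μ] vf T s p u := by
  exact toL2_coe (vf_BM hT s p hu).memLp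

lemma vf_update {n : ℕ} (s : Fin (n+1) → ℤ) (p : Fin (n+1))
    (u : Fin (n+1) → Lp ℝ 2 μ) (x : Lp ℝ 2 μ) :
    vf T s p (Function.update u p x) = vf T s p u := by
  funext ω
  unfold vf
  apply Finset.prod_congr rfl
  intro i _
  rw [Function.update_of_ne (Fin.succAbove_ne p i)]

lemma Vv_update {n : ℕ} (s : Fin (n+1) → ℤ) (p : Fin (n+1))
    (u : Fin (n+1) → Lp ℝ 2 μ) (x : Lp ℝ 2 μ) :
    Vv T s p (Function.update u p x) = Vv T s p u := by
  unfold Vv
  rw [vf_update]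

lemma Ic_eq {n : ℕ} (hT : MeasurePreserving T μ μ) (s : Fin (n+1) → ℤ) (p : Fin (n+1))
    {u : Fin (n+1) → Lp ℝ 2 μ} (hu : ∀ i, i ≠ p → EB (u i)) :
    Ic T s u = ⟪Kp hT (s p) (u p), Vv T s p u⟫_ℝ := by
  rw [L2.inner_def]
  unfold Ic corr
  apply integral_congr_ae
  filter_upwards [Kp_coe hT (s p) (u p), Vv_coe hT s p hu] with ω h1 h2
  rw [h1, h2, Fin.prod_univ_succAbove _ p]
  simp [vf, mul_comm]

lemma Ic_update {n : ℕ} (hT : MeasurePreserving T μ μ) (s : Fin (n+1) → ℤ) (p : Fin (n+1))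
    {u : Fin (n+1) → Lp ℝ 2 μ} (hu : ∀ i, i ≠ p → EB (u i)) (x : Lp ℝ 2 μ) :
    Ic T s (Function.update u p x) = ⟪Kp hT (s p) x, Vv T s p u⟫_ℝ := by
  rw [Ic_eq hT s p (u := Function.update u p x), Vv_update, Function.update_self]
  intro i hi
  rw [Function.update_of_ne hi]
  exact hu i hi

lemma Vv_bound {n : ℕ} (hT : MeasurePreserving T μ μ) (p : Fin (n+1))
    {u : Fin (n+1) → Lp ℝ 2 μ} (hu : ∀ i, i ≠ p → EB (u i)) :
    ∃ B : ℝ, 0 ≤ B ∧ ∀ s : Fin (n+1) → ℤ, ‖Vv T s p u‖ ≤ B := by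
  choose C hC0 hC using fun i : Fin n => (hu _ (Fin.succAbove_ne p i)).2
  refine ⟨∏ i, C i, Finset.prod_nonneg fun i _ => hC0 i, fun s => ?_⟩
  have h1 : ∀ᵐ ω ∂μ, ‖Vv T s p u ω‖ ≤ ∏ i, C i := by
    have : ∀ i : Fin n, ∀ᵐ ω ∂μ, |u (p.succAbove i) (zp T (s (p.succAbove i)) ω)| ≤ C i :=
      fun i => (mp_zp hT _).quasiMeasurePreserving.ae (hC i)
    filter_upwards [Vv_coe hT s p hu, ae_all_iff.2 this] with ω h2 h3
    rw [h2, Real.norm_eq_abs, vf, Finset.abs_prod]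
    exact Finset.prod_le_prod (fun i _ => abs_nonneg _) fun i _ => h3 i
  have h2 := Lp.norm_le_of_ae_bound (p := 2) (μ := μ) (Finset.prod_nonneg fun i _ => hC0 i) h1
  simpa [measureUnivNNReal] using h2

/-- Gram matrix of the vectors `Vv` -/
lemma inner_Vv {n : ℕ} (hT : MeasurePreserving T μ μ) (hmix : MixingOfOrder μ T n)
    (t : ℕ → Fin (n+1) → ℤ) (ht : ∀ i j, i < j → Tendsto (fun N => t N j - t N i) atTop atTop)
    (p : Fin (n+1)) {u v : Fin (n+1) → Lp ℝ 2 μ} (hu : ∀ i, i ≠ p → EB (u i))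
    (hv : ∀ i, i ≠ p → EB (v i)) :
    Tendsto (fun N => ⟪Vv T (t N) p u, Vv T (t N) p v⟫_ℝ) atTop
      (𝓝 (∏ i : Fin n, ⟪u (p.succAbove i), v (p.succAbove i)⟫_ℝ)) := by
  have h1 := mixFun hT hmix (fun N i => t N (p.succAbove i))
    (fun i j hij => ht _ _ (p.strictMono_succAbove hij))
    (fun i ω => u (p.succAbove i) ω * v (p.succAbove i) ω)
    (fun i => (hu _ (Fin.succAbove_ne p i)).mul (hv _ (Fin.succAbove_ne p i)))
  have e1 : ∀ N, ⟪Vv T (t N) p u, Vv T (t N) p v⟫_ℝ = corr μ T (fun i => t N (p.succAbove i))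
      (fun i ω => u (p.succAbove i) ω * v (p.succAbove i) ω) := by
    intro N
    rw [L2.inner_def]
    unfold corr
    apply integral_congr_ae
    filter_upwards [Vv_coe hT (t N) p hu, Vv_coe hT (t N) p hv] with ω h2 h3
    rw [h2, h3]
    simp [vf, Finset.prod_mul_distrib, mul_comm]
  have e2 : ∏ i : Fin n, ⟪u (p.succAbove i), v (p.succAbove i)⟫_ℝ =
      ∏ i : Fin n, ∫ ω, u (p.succAbove i) ω * v (p.succAbove i) ω ∂μ := by
    apply Finset.prod_congr rfl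
    intro i _
    rw [L2.inner_def]
    congr 1
    funext ω
    simp [mul_comm]
  rw [e2]
  simp only [e1]
  exact h1

/-- the ultrafilter limit of the correlations -/
noncomputable def cf {k : ℕ} (T : Ω ≃ᵐ Ω) (t : ℕ → Fin k → ℤ) (u : Fin k → Lp ℝ 2 μ) : ℝ :=
  limUnder (hyperfilter ℕ : Filter ℕ) (fun N => Ic T (t N) u)

lemma tendsto_cf {n : ℕ} (hT : MeasurePreserving T μ μ) (t : ℕ → Fin (n+1) → ℤ)
    (p : Fin (n+1)) {u : Fin (n+1) → Lp ℝ 2 μ} (hu : ∀ i, i ≠ p → EB (u i)) :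
    Tendsto (fun N => Ic T (t N) u) (hyperfilter ℕ : Filter ℕ) (𝓝 (cf T t u)) := by
  obtain ⟨B, hB0, hB⟩ := Vv_bound hT p hu
  have hb : ∀ N, Ic T (t N) u ∈ Set.Icc (-(‖u p‖ * B)) (‖u p‖ * B) := by
    intro N
    rw [Set.mem_Icc, ← abs_le, Ic_eq hT _ p hu]
    calc _ ≤ ‖Kp hT (t N p) (u p)‖ * ‖Vv T (t N) p u‖ := abs_real_inner_le_norm _ _
      _ = ‖u p‖ * ‖Vv T (t N) p u‖ := by rw [LinearIsometry.norm_map]
      _ ≤ _ := mul_le_mul_of_nonneg_left (hB _) (norm_nonneg _)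
  obtain ⟨x, _, hx⟩ := (isCompact_Icc (a := -(‖u p‖ * B)) (b := ‖u p‖ * B)).ultrafilter_le_nhds
    ((hyperfilter ℕ).map (fun N => Ic T (t N) u)) (by
      rw [Ultrafilter.coe_map]
      exact Filter.tendsto_principal.2 (Eventually.of_forall hb))
  exact tendsto_nhds_limUnder ⟨x, hx⟩

lemma cf_update_add {n : ℕ} (hT : MeasurePreserving T μ μ) (t : ℕ → Fin (n+1) → ℤ)
    (p : Fin (n+1)) {u : Fin (n+1) → Lp ℝ 2 μ} (hu : ∀ i, i ≠ p → EB (u i))
    (x y : Lp ℝ 2 μ) :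
    cf T t (Function.update u p (x + y)) =
      cf T t (Function.update u p x) + cf T t (Function.update u p y) := by
  have hu' : ∀ z : Lp ℝ 2 μ, ∀ i, i ≠ p → EB (Function.update u p z i) := by
    intro z i hi; rw [Function.update_of_ne hi]; exact hu i hi
  have h1 := tendsto_cf hT t p (hu' (x + y))
  have h2 := (tendsto_cf hT t p (hu' x)).add (tendsto_cf hT t p (hu' y))
  refine tendsto_nhds_unique h1 ?_
  convert h2 using 2 with N
  rw [Ic_update hT _ p hu, Ic_update hT _ p hu, Ic_update hT _ p hu, map_add, inner_add_left]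

lemma cf_update_smul {n : ℕ} (hT : MeasurePreserving T μ μ) (t : ℕ → Fin (n+1) → ℤ)
    (p : Fin (n+1)) {u : Fin (n+1) → Lp ℝ 2 μ} (hu : ∀ i, i ≠ p → EB (u i))
    (r : ℝ) (x : Lp ℝ 2 μ) :
    cf T t (Function.update u p (r • x)) = r * cf T t (Function.update u p x) := by
  have hu' : ∀ z : Lp ℝ 2 μ, ∀ i, i ≠ p → EB (Function.update u p z i) := by
    intro z i hi; rw [Function.update_of_ne hi]; exact hu i hi
  have h1 := tendsto_cf hT t p (hu' (r • x))
  have h2 := (tendsto_cf hT t p (hu' x)).const_mul r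
  refine tendsto_nhds_unique h1 ?_
  convert h2 using 2 with N
  rw [Ic_update hT _ p hu, Ic_update hT _ p hu, map_smul, inner_smul_left]
  simp

lemma cf_bound {n : ℕ} (hT : MeasurePreserving T μ μ) (t : ℕ → Fin (n+1) → ℤ)
    (p : Fin (n+1)) {u : Fin (n+1) → Lp ℝ 2 μ} (hu : ∀ i, i ≠ p → EB (u i)) :
    ∃ B : ℝ, 0 ≤ B ∧ ∀ x : Lp ℝ 2 μ, |cf T t (Function.update u p x)| ≤ B * ‖x‖ := by
  obtain ⟨B, hB0, hB⟩ := Vv_bound hT p hu
  refine ⟨B, hB0, fun x => ?_⟩
  have hu' : ∀ z : Lp ℝ 2 μ, ∀ i, i ≠ p → EB (Function.update u p z i) := by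
    intro z i hi; rw [Function.update_of_ne hi]; exact hu i hi
  have h1 := (tendsto_cf hT t p (hu' x)).abs
  refine le_of_tendsto h1 (Eventually.of_forall fun N => ?_)
  rw [Ic_update hT _ p hu]
  calc _ ≤ ‖Kp hT (t N p) x‖ * ‖Vv T (t N) p u‖ := abs_real_inner_le_norm _ _
      _ = ‖x‖ * ‖Vv T (t N) p u‖ := by rw [LinearIsometry.norm_map]
      _ ≤ ‖x‖ * B := mul_le_mul_of_nonneg_left (hB _) (norm_nonneg _)
      _ = _ := mul_comm _ _

/-- the form in coordinate `p` as a continuous linear functional -/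
noncomputable def cfL {n : ℕ} (hT : MeasurePreserving T μ μ) (t : ℕ → Fin (n+1) → ℤ)
    (p : Fin (n+1)) (u : Fin (n+1) → Lp ℝ 2 μ) (hu : ∀ i, i ≠ p → EB (u i)) :
    Lp ℝ 2 μ →L[ℝ] ℝ :=
  LinearMap.mkContinuousOfExistsBound
    { toFun := fun x => cf T t (Function.update u p x)
      map_add' := cf_update_add hT t p hu
      map_smul' := fun r x => cf_update_smul hT t p hu r x }
    (by
      obtain ⟨B, _, hB⟩ := cf_bound hT t p hu
      exact ⟨B, fun x => hB x⟩)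

lemma cfL_apply {n : ℕ} (hT : MeasurePreserving T μ μ) (t : ℕ → Fin (n+1) → ℤ)
    (p : Fin (n+1)) (u : Fin (n+1) → Lp ℝ 2 μ) (hu : ∀ i, i ≠ p → EB (u i)) (x : Lp ℝ 2 μ) :
    cfL hT t p u hu x = cf T t (Function.update u p x) := rfl

/-- Gram bound for the limit form: `p` is the odd coordinate -/
lemma cf_gram {n : ℕ} (hT : MeasurePreserving T μ μ) (hmix : MixingOfOrder μ T n)
    (t : ℕ → Fin (n+1) → ℤ) (ht : ∀ i j, i < j → Tendsto (fun N => t N j - t N i) atTop atTop)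
    (p : Fin (n+1)) {J : Type*} (A : Finset J) (s : J → ℝ) (y : J → Fin (n+1) → Lp ℝ 2 μ)
    (hy : ∀ a i, i ≠ p → EB (y a i)) (x : Lp ℝ 2 μ) :
    (∑ a ∈ A, s a * cf T t (Function.update (y a) p x)) ^ 2 ≤
      ‖x‖ ^ 2 * ∑ a ∈ A, ∑ b ∈ A, s a * s b *
        ∏ i : Fin n, ⟪y a (p.succAbove i), y b (p.succAbove i)⟫_ℝ := by
  have hu' : ∀ a, ∀ z : Lp ℝ 2 μ, ∀ i, i ≠ p → EB (Function.update (y a) p z i) := by
    intro a z i hi; rw [Function.update_of_ne hi]; exact hy a i hi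
  have h1 : Tendsto (fun N => (∑ a ∈ A, s a * Ic T (t N) (Function.update (y a) p x)) ^ 2)
      (hyperfilter ℕ : Filter ℕ) (𝓝 ((∑ a ∈ A, s a * cf T t (Function.update (y a) p x)) ^ 2)) := by
    apply Tendsto.pow
    apply tendsto_finsetSum
    intro a _
    exact (tendsto_cf hT t p (hu' a x)).const_mul _
  have h2 : Tendsto (fun N => ‖x‖ ^ 2 * ∑ a ∈ A, ∑ b ∈ A, s a * s b *
      ⟪Vv T (t N) p (y a), Vv T (t N) p (y b)⟫_ℝ) (hyperfilter ℕ : Filter ℕ)
      (𝓝 (‖x‖ ^ 2 * ∑ a ∈ A, ∑ b ∈ A, s a * s b *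
        ∏ i : Fin n, ⟪y a (p.succAbove i), y b (p.succAbove i)⟫_ℝ)) := by
    apply Tendsto.const_mul
    apply tendsto_finsetSum
    intro a _
    apply tendsto_finsetSum
    intro b _
    apply Tendsto.const_mul
    exact (inner_Vv hT hmix t ht p (hy a) (hy b)).mono_left Nat.hyperfilter_le_atTop
  refine le_of_tendsto_of_tendsto h1 h2 (Eventually.of_forall fun N => ?_)
  have e1 : ∑ a ∈ A, s a * Ic T (t N) (Function.update (y a) p x) =
      ⟪Kp hT (t N p) x, ∑ a ∈ A, s a • Vv T (t N) p (y a)⟫_ℝ := by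
    rw [inner_sum]
    apply Finset.sum_congr rfl
    intro a _
    rw [Ic_update hT _ p (hy a), inner_smul_right]
  have e2 : ∑ a ∈ A, ∑ b ∈ A, s a * s b * ⟪Vv T (t N) p (y a), Vv T (t N) p (y b)⟫_ℝ =
      ‖∑ a ∈ A, s a • Vv T (t N) p (y a)‖ ^ 2 := by
    rw [← real_inner_self_eq_norm_sq, sum_inner]
    apply Finset.sum_congr rfl
    intro a _
    rw [inner_sum]
    apply Finset.sum_congr rfl
    intro b _
    rw [inner_smul_left, inner_smul_right]
    simp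
    ring
  simp only
  rw [e1, e2, ← mul_pow]
  rw [← sq_abs]
  apply pow_le_pow_left₀ (abs_nonneg _)
  calc _ ≤ ‖Kp hT (t N p) x‖ * ‖∑ a ∈ A, s a • Vv T (t N) p (y a)‖ := abs_real_inner_le_norm _ _
    _ = _ := by rw [LinearIsometry.norm_map]

end Vale.Agent.P102
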