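import Vale.Agent.P102.Build

open MeasureTheory Filter Topology
open scoped ENNReal InnerProductSpace

namespace Vale.Agent.P102

variable {Ω : Type*} [MeasurableSpace Ω] {μ : Measure Ω} [IsProbabilityMeasure μ] {T : Ω ≃ᵐ Ω}

set_option linter.unusedSectionVars false

lemma EB_indicator {A : Set Ω} (hA : MeasurableSet A) (c : ℝ) :
    EB (indicatorConstLp 2 hA (measure_ne_top μ A) c) := by
  refine ⟨Lp.aestronglyMeasurable _, |c|, abs_nonneg c, ?_⟩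
  filter_upwards [indicatorConstLp_coeFn (p := 2) (hs := hA) (hμs := measure_ne_top μ A) (c := c)]
    with ω h
  rw [h]
  by_cases hω : ω ∈ A
  · simp [hω]
  · simp [hω]

/-- two continuous linear functionals that agree on essentially bounded elements are equal -/
lemma eq_of_EB (L₁ L₂ : Lp ℝ 2 μ →L[ℝ] ℝ) (h : ∀ g, EB g → L₁ g = L₂ g) (g : Lp ℝ 2 μ) :
    L₁ g = L₂ g := by
  refine Lp.induction (p := 2) (by norm_num) (fun g : Lp ℝ 2 μ => L₁ g = L₂ g) ?_ ?_ ?_ g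
  · intro c s hs hμs
    apply h
    rw [Lp.simpleFunc.coe_indicatorConst]
    exact EB_indicator hs c
  · intro f g hf hg _ h1 h2
    rw [map_add, map_add, h1, h2]
  · exact isClosed_eq L₁.continuous L₂.continuous

/-- the annihilator of the limit form in coordinate `0` -/
noncomputable def annih {n : ℕ} (hT : MeasurePreserving T μ μ) (t : ℕ → Fin (n+1) → ℤ) :
    Submodule ℝ (Lp ℝ 2 μ) where
  carrier := {g | ∀ u : Fin (n+1) → Lp ℝ 2 μ, (∀ i, EB (u i)) →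
    cf T t (Function.update u 0 g) = 0}
  add_mem' := by
    intro a b ha hb u hu
    rw [cf_update_add hT t 0 (fun i _ => hu i), ha u hu, hb u hu, add_zero]
  zero_mem' := by
    intro u hu
    have := cf_update_smul hT t 0 (fun i _ => hu i) 0 (0 : Lp ℝ 2 μ)
    simpa using this
  smul_mem' := by
    intro c a ha u hu
    rw [cf_update_smul hT t 0 (fun i _ => hu i), ha u hu, mul_zero]

lemma annih_closed {n : ℕ} (hT : MeasurePreserving T μ μ) (t : ℕ → Fin (n+1) → ℤ) :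
    IsClosed (annih hT t : Set (Lp ℝ 2 μ)) := by
  have : (annih hT t : Set (Lp ℝ 2 μ)) = ⋂ (u : Fin (n+1) → Lp ℝ 2 μ) (hu : ∀ i, EB (u i)),
      {g | cfL hT t 0 u (fun i _ => hu i) g = 0} := by
    ext g
    simp only [Set.mem_iInter]
    rfl
  rw [this]
  apply isClosed_iInter
  intro u
  apply isClosed_iInter
  intro hu
  exact isClosed_eq (cfL hT t 0 u (fun i _ => hu i)).continuous continuous_const

/-- the constant one -/
noncomputable def one2 (μ : Measure Ω) [IsProbabilityMeasure μ] : Lp ℝ 2 μ :=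
  indicatorConstLp 2 MeasurableSet.univ (measure_ne_top μ _) (1:ℝ)

lemma one2_coe : (one2 μ : Ω → ℝ) =ᵐ[μ] fun _ => 1 := by
  filter_upwards [indicatorConstLp_coeFn (p := 2) (hs := MeasurableSet.univ)
    (hμs := measure_ne_top μ Set.univ) (c := (1:ℝ))] with ω h
  rw [one2, h]; simp

lemma EB_one2 : EB (one2 μ) := EB_indicator _ _

/-- value of the form when coordinate `0` is the constant one -/
lemma cf_one {n : ℕ} (hT : MeasurePreserving T μ μ) (hmix : MixingOfOrder μ T n)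
    (t : ℕ → Fin (n+1) → ℤ)
    (ht : ∀ i j, i < j → Tendsto (fun N => t N j - t N i) atTop atTop)
    (u : Fin (n+1) → Lp ℝ 2 μ) (hu : ∀ i, EB (u i)) :
    cf T t (Function.update u 0 (one2 μ)) = ∏ i : Fin n, ∫ ω, u i.succ ω ∂μ := by
  have h1 := tendsto_cf hT t 0 (u := Function.update u 0 (one2 μ))
    (EB_update (fun i _ => hu i))
  have h2 := (mixFun hT hmix (fun N i => t N i.succ)
    (fun i j hij => ht _ _ (Fin.succ_lt_succ_iff.2 hij)) (fun i => (u i.succ : Ω → ℝ))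
    (fun i => hu _)).mono_left Nat.hyperfilter_le_atTop
  refine tendsto_nhds_unique h1 (h2.congr fun N => ?_)
  unfold Ic corr
  apply integral_congr_ae
  filter_upwards [(mp_zp hT (t N 0)).quasiMeasurePreserving.ae (one2_coe (μ := μ))] with ω h3
  rw [Fin.prod_univ_succ]
  simp [h3, Fin.succ_ne_zero]

/-- value of the form when all coordinates except `0` are the constant one -/
lemma cf_ones {n : ℕ} (hT : MeasurePreserving T μ μ)
    (t : ℕ → Fin (n+1) → ℤ) (g : Lp ℝ 2 μ) :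
    cf T t (Function.update (fun _ => one2 μ) 0 g) = ∫ ω, g ω ∂μ := by
  have h1 := tendsto_cf hT t 0 (u := Function.update (fun _ => one2 μ) 0 g)
    (EB_update (fun i _ => EB_one2))
  refine tendsto_nhds_unique h1 (tendsto_const_nhds.congr fun N => ?_)
  unfold Ic corr
  have h2 : ∀ i : Fin n, ∀ᵐ ω ∂μ, (one2 μ : Ω → ℝ) (zp T (t N i.succ) ω) = 1 := fun i =>
    (mp_zp hT (t N i.succ)).quasiMeasurePreserving.ae (one2_coe (μ := μ))
  rw [← integral_comp_mp (mp_zp hT (t N 0)) (g : Ω → ℝ) (Lp.aestronglyMeasurable g)]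
  apply integral_congr_ae
  filter_upwards [ae_all_iff.2 h2] with ω h3
  rw [Fin.prod_univ_succ]
  simp [h3, Fin.succ_ne_zero]

lemma integral_inner_one (g : Lp ℝ 2 μ) : ∫ ω, g ω ∂μ = ⟪one2 μ, g⟫_ℝ := by
  rw [one2, L2.inner_indicatorConstLp_one]
  simp

lemma PP_symm (Q : Lp ℝ 2 μ →L[ℝ] Lp ℝ 2 μ) (x y : Lp ℝ 2 μ) :
    ⟪PP Q x, y⟫_ℝ = ⟪x, PP Q y⟫_ℝ := by
  unfold PP
  simp only [ContinuousLinearMap.comp_apply]
  rw [← ContinuousLinearMap.adjoint_inner_right, ContinuousLinearMap.adjoint_inner_left]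

lemma PP_pow_symm (Q : Lp ℝ 2 μ →L[ℝ] Lp ℝ 2 μ) (m : ℕ) (x y : Lp ℝ 2 μ) :
    ⟪(PP Q ^ m) x, y⟫_ℝ = ⟪x, (PP Q ^ m) y⟫_ℝ := by
  induction m generalizing x y with
  | zero => simp
  | succ m ih =>
    rw [pow_succ', mul_apply_eq_comp, mul_apply_eq_comp, PP_symm, ih,
      ← mul_apply_eq_comp, ← mul_apply_eq_comp, ← pow_succ, ← pow_succ']

/-- a positive contraction fixes every vector whose norm it preserves -/
lemma PP_fix (Q : Lp ℝ 2 μ →L[ℝ] Lp ℝ 2 μ) (hQ : ∀ x, ‖Q x‖ ≤ ‖x‖) (y : Lp ℝ 2 μ)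
    (hy : ‖PP Q y‖ = ‖y‖) : PP Q y = y := by
  have h1 : ‖PP Q y‖ ≤ ‖ContinuousLinearMap.adjoint Q y‖ := hQ _
  have h2 : ⟪PP Q y, y⟫_ℝ = ‖ContinuousLinearMap.adjoint Q y‖ ^ 2 := by
    rw [← real_inner_self_eq_norm_sq, ContinuousLinearMap.adjoint_inner_right]
    rfl
  have h3 : ‖PP Q y - y‖ ^ 2 = ‖PP Q y‖ ^ 2 - 2 * ⟪PP Q y, y⟫_ℝ + ‖y‖ ^ 2 :=
    norm_sub_sq_real _ _
  have h4 : ‖PP Q y - y‖ ^ 2 ≤ 0 := by
    rw [h3, h2]
    rw [hy] at h1 ⊢
    have : ‖y‖ ^ 2 ≤ ‖ContinuousLinearMap.adjoint Q y‖ ^ 2 :=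
      pow_le_pow_left₀ (norm_nonneg _) h1 2
    linarith
  have h5 : ‖PP Q y - y‖ = 0 := by
    have := sq_nonneg ‖PP Q y - y‖
    have h6 : ‖PP Q y - y‖ ^ 2 = 0 := le_antisymm h4 this
    exact pow_eq_zero_iff (two_ne_zero) |>.1 h6
  exact sub_eq_zero.1 (norm_eq_zero.1 h5)

lemma adj_norm_le (Q : Lp ℝ 2 μ →L[ℝ] Lp ℝ 2 μ) (hQ : ∀ x, ‖Q x‖ ≤ ‖x‖) (y : Lp ℝ 2 μ) :
    ‖ContinuousLinearMap.adjoint Q y‖ ≤ ‖y‖ := by
  have h1 : ‖Q‖ ≤ 1 := ContinuousLinearMap.opNorm_le_bound _ zero_le_one (by simpa using hQ)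
  have h2 : ‖ContinuousLinearMap.adjoint Q‖ ≤ 1 := by
    rw [LinearIsometryEquiv.norm_map]; exact h1
  calc _ ≤ ‖ContinuousLinearMap.adjoint Q‖ * ‖y‖ := ContinuousLinearMap.le_opNorm _ _
    _ ≤ 1 * ‖y‖ := mul_le_mul_of_nonneg_right h2 (norm_nonneg _)
    _ = ‖y‖ := one_mul _

lemma PP_norm_le (Q : Lp ℝ 2 μ →L[ℝ] Lp ℝ 2 μ) (hQ : ∀ x, ‖Q x‖ ≤ ‖x‖) (y : Lp ℝ 2 μ) :
    ‖PP Q y‖ ≤ ‖y‖ := (hQ _).trans (adj_norm_le Q hQ y)

lemma PP_pow_norm_le (Q : Lp ℝ 2 μ →L[ℝ] Lp ℝ 2 μ) (hQ : ∀ x, ‖Q x‖ ≤ ‖x‖) (m : ℕ)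
    (y : Lp ℝ 2 μ) : ‖(PP Q ^ m) y‖ ≤ ‖y‖ := by
  induction m with
  | zero => simp
  | succ m ih =>
    rw [pow_succ', mul_apply_eq_comp]
    exact (PP_norm_le Q hQ _).trans ih

/-- main step on the annihilator -/
lemma mem_annih {n : ℕ} (hn : 2 ≤ n) (hT : MeasurePreserving T μ μ) (hmix : MixingOfOrder μ T n)
    (hC : ∀ f : Lp ℝ 2 μ, ∫ ω, f ω ∂μ = 0 → f ≠ 0 →
      ∃ Q, IsCLim μ T Q ∧ PP Q (PP Q f) ≠ PP Q f)
    (t : ℕ → Fin (n+1) → ℤ)
    (ht : ∀ i j, i < j → Tendsto (fun N => t N j - t N i) atTop atTop)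
    (g : Lp ℝ 2 μ) (hg : ∫ ω, g ω ∂μ = 0) : g ∈ annih hT t := by
  have hcl := annih_closed hT t
  have : CompleteSpace (annih hT t) := hcl.completeSpace_coe
  obtain ⟨y, hy, x, hx, hgx⟩ := (annih hT t).exists_add_mem_mem_orthogonal g
  by_cases hx0 : x = 0
  · rw [hgx, hx0, add_zero]; exact hy
  exfalso
  have hyint : ∫ ω, y ω ∂μ = 0 := by
    rw [← cf_ones hT t y]
    exact hy (fun _ => one2 μ) (fun _ => EB_one2)
  have hxint : ∫ ω, x ω ∂μ = 0 := by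
    rw [integral_inner_one] at hg hyint ⊢
    rw [hgx, inner_add_right, hyint, zero_add] at hg
    exact hg
  obtain ⟨Q, hQ, hne⟩ := hC x hxint hx0
  obtain ⟨W, W', Qf, hsys, hQ0⟩ := exists_sys hT t Q hQ
  have hQn : ∀ z, ‖Q z‖ ≤ ‖z‖ := by
    intro z; rw [← hQ0]; exact hsys.norm_Q_le 0 z
  have hmem : ∀ z : Lp ℝ 2 μ, (PP Q ^ n) z - PP Q z ∈ annih hT t := by
    intro z u hu
    have h1 := eq_of_EB ((cfL hT t 0 u (fun i _ => hu i)) ∘L (PP Q ^ n))
      ((cfL hT t 0 u (fun i _ => hu i)) ∘L (PP Q)) (by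
        intro g hg
        simp only [ContinuousLinearMap.comp_apply, cfL_apply]
        have h2 := hsys.claim4 hT hmix ht (Function.update u 0 g) (EB_update' hu hg)
        rw [hQ0] at h2
        simpa using h2) z
    have h3 : cf T t (Function.update u 0 ((PP Q ^ n) z - PP Q z)) =
        cfL hT t 0 u (fun i _ => hu i) ((PP Q ^ n) z - PP Q z) := rfl
    rw [h3, map_sub]
    simp only [ContinuousLinearMap.comp_apply] at h1
    rw [h1, sub_self]
  have h4 : (PP Q ^ n) x - PP Q x = 0 := by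
    have h5 : ⟪(PP Q ^ n) x - PP Q x, (PP Q ^ n) x - PP Q x⟫_ℝ = 0 := by
      have h6 : ∀ z, ⟪(PP Q ^ n) x - PP Q x, z⟫_ℝ = ⟪x, (PP Q ^ n) z - PP Q z⟫_ℝ := by
        intro z
        rw [inner_sub_left, inner_sub_right, PP_pow_symm, PP_symm]
      rw [h6, real_inner_comm]
      exact hx _ (hmem _)
    exact inner_self_eq_zero.1 h5
  have h5 : PP Q x = (PP Q ^ n) x := (sub_eq_zero.1 h4).symm
  have h6 : ‖PP Q (PP Q x)‖ = ‖PP Q x‖ := by
    apply le_antisymm (PP_norm_le Q hQn _)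
    obtain ⟨m, rfl⟩ : ∃ m, n = m + 2 := ⟨n - 2, by omega⟩
    calc ‖PP Q x‖ = ‖(PP Q ^ (m + 2)) x‖ := by rw [← h5]
      _ = ‖(PP Q ^ m) (PP Q (PP Q x))‖ := by
        rw [pow_add, mul_apply_eq_comp, pow_two, mul_apply_eq_comp]
      _ ≤ _ := PP_pow_norm_le Q hQn m _
  exact hne (PP_fix Q hQn (PP Q x) h6)

/-- the form is the product form -/
lemma cf_eq_prod {n : ℕ} (hn : 2 ≤ n) (hT : MeasurePreserving T μ μ)
    (hmix : MixingOfOrder μ T n)
    (hC : ∀ f : Lp ℝ 2 μ, ∫ ω, f ω ∂μ = 0 → f ≠ 0 →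
      ∃ Q, IsCLim μ T Q ∧ PP Q (PP Q f) ≠ PP Q f)
    (t : ℕ → Fin (n+1) → ℤ)
    (ht : ∀ i j, i < j → Tendsto (fun N => t N j - t N i) atTop atTop)
    (u : Fin (n+1) → Lp ℝ 2 μ) (hu : ∀ i, EB (u i)) :
    cf T t u = ∏ i, ∫ ω, u i ω ∂μ := by
  set m : ℝ := ∫ ω, u 0 ω ∂μ with hm
  set g : Lp ℝ 2 μ := u 0 - m • one2 μ with hg
  have hone : ⟪one2 μ, one2 μ⟫_ℝ = 1 := by
    rw [← integral_inner_one, integral_congr_ae one2_coe]
    simp
  have hgint : ∫ ω, g ω ∂μ = 0 := by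
    rw [integral_inner_one, hg, inner_sub_right, inner_smul_right, hone, ← integral_inner_one,
      ← hm]
    ring
  have h1 := mem_annih hn hT hmix hC t ht g hgint u hu
  have h2 : u = Function.update u 0 (g + m • one2 μ) := by
    rw [hg, sub_add_cancel, Function.update_eq_self]
  rw [h2, cf_update_add hT t 0 (fun i _ => hu i), h1, zero_add,
    cf_update_smul hT t 0 (fun i _ => hu i), cf_one hT hmix t ht u hu, ← h2,
    Fin.prod_univ_succ]

lemma mixing_step {n : ℕ} (hn : 2 ≤ n) (hT : MeasurePreserving T μ μ)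
    (hmix : MixingOfOrder μ T n)
    (hC : ∀ f : Lp ℝ 2 μ, ∫ ω, f ω ∂μ = 0 → f ≠ 0 →
      ∃ Q, IsCLim μ T Q ∧ PP Q (PP Q f) ≠ PP Q f) :
    MixingOfOrder μ T (n+1) := by
  intro A hA ε hε
  by_contra hcon
  push Not at hcon
  choose t ht1 ht2 using fun N : ℕ => hcon (N : ℤ)
  have ht : ∀ i j, i < j → Tendsto (fun N => t N j - t N i) atTop atTop := by
    intro i j hij
    exact tendsto_atTop_mono (fun N => ht1 N i j hij) tendsto_natCast_atTop_atTop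
  set u : Fin (n+1) → Lp ℝ 2 μ := fun i => indicatorConstLp 2 (hA i) (measure_ne_top μ (A i)) (1:ℝ)
    with hu
  have huEB : ∀ i, EB (u i) := fun i => EB_indicator (hA i) 1
  have hcoe : ∀ i, (u i : Ω → ℝ) =ᵐ[μ] (A i).indicator fun _ => (1:ℝ) := fun i =>
    indicatorConstLp_coeFn
  have h1 := tendsto_cf hT t 0 (u := u) (fun i _ => huEB i)
  rw [cf_eq_prod hn hT hmix hC t ht u huEB] at h1
  have e1 : ∀ i, ∫ ω, u i ω ∂μ = μ.real (A i) := by
    intro i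
    rw [integral_congr_ae (hcoe i), integral_indicator_const _ (hA i)]
    simp
  have e2 : ∀ N, Ic T (t N) u = μ.real (⋂ i, zp T (t N i) ⁻¹' A i) := by
    intro N
    have h3 : ∀ i, ∀ᵐ ω ∂μ, (u i : Ω → ℝ) (zp T (t N i) ω) =
        (A i).indicator (fun _ => (1:ℝ)) (zp T (t N i) ω) := fun i =>
      (mp_zp hT (t N i)).quasiMeasurePreserving.ae (hcoe i)
    have h4 : Ic T (t N) u = ∫ ω, (⋂ i, zp T (t N i) ⁻¹' A i).indicator (fun _ => (1:ℝ)) ω ∂μ := by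
      unfold Ic corr
      apply integral_congr_ae
      filter_upwards [ae_all_iff.2 h3] with ω h5
      rw [Finset.prod_congr rfl fun i _ => h5 i]
      by_cases h : ω ∈ ⋂ i, zp T (t N i) ⁻¹' A i
      · rw [Set.indicator_of_mem h]
        apply Finset.prod_eq_one
        intro i _
        rw [Set.indicator_of_mem]
        exact Set.mem_iInter.1 h i
      · rw [Set.indicator_of_notMem h]
        simp only [Set.mem_iInter, not_forall] at h
        obtain ⟨i, hi⟩ := h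
        apply Finset.prod_eq_zero (Finset.mem_univ i)
        rw [Set.indicator_of_notMem]
        exact hi
    rw [h4, integral_indicator_const _ (MeasurableSet.iInter fun i =>
      (mp_zp hT (t N i)).measurable (hA i))]
    simp
  simp only [e1, e2] at h1
  obtain ⟨N, hN⟩ := (h1.eventually (Metric.ball_mem_nhds _ hε)).exists
  have h5 := ht2 N
  simp only [Real.dist_eq] at hN
  exact absurd hN (not_lt.2 h5)

lemma mixing_zero : MixingOfOrder μ T 0 := by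
  intro A hA ε hε
  refine ⟨0, fun t _ => ?_⟩
  simp [hε]

lemma mixing_one (hT : MeasurePreserving T μ μ) : MixingOfOrder μ T 1 := by
  intro A hA ε hε
  refine ⟨0, fun t _ => ?_⟩
  have h1 : (⋂ i, zp T (t i) ⁻¹' A i) = zp T (t 0) ⁻¹' A 0 := by
    ext ω
    simp [Fin.forall_fin_one]
  have h2 : μ.real (zp T (t 0) ⁻¹' A 0) = μ.real (A 0) := by
    unfold Measure.real
    rw [(mp_zp hT (t 0)).measure_preimage (hA 0).nullMeasurableSet]
  rw [h1, h2]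
  simp [hε]

theorem mixing_all (hT : MeasurePreserving T μ μ) (hmix : MixingOfOrder μ T 2)
    (hC : ∀ f : Lp ℝ 2 μ, ∫ ω, f ω ∂μ = 0 → f ≠ 0 →
      ∃ Q, IsCLim μ T Q ∧ PP Q (PP Q f) ≠ PP Q f) (k : ℕ) :
    MixingOfOrder μ T k := by
  induction k with
  | zero => exact mixing_zero
  | succ k ih =>
    rcases Nat.lt_or_ge k 2 with h | h
    · interval_cases k
      · exact mixing_one hT
      · exact hmix
    · exact mixing_step h hT ih hC

/-- two square-integrable functions with the same pairings are a.e. equal -/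
lemma ae_eq_of_pair {f g : Ω → ℝ} (hf : MemLp f 2 μ) (hg : MemLp g 2 μ)
    (h : ∀ k : Ω → ℝ, MemLp k 2 μ → ∫ ω, f ω * k ω ∂μ = ∫ ω, g ω * k ω ∂μ) : f =ᵐ[μ] g := by
  have h1 : hf.toLp f = hg.toLp g := by
    apply ext_inner_right ℝ
    intro v
    rw [L2.inner_def, L2.inner_def]
    have e1 : ∀ {f : Ω → ℝ} (hf : MemLp f 2 μ),
        ∫ ω, ⟪(hf.toLp f) ω, v ω⟫_ℝ ∂μ = ∫ ω, f ω * v ω ∂μ := by
      intro f hf
      apply integral_congr_ae
      filter_upwards [hf.coeFn_toLp] with ω h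
      rw [h]; simp [mul_comm]
    rw [e1 hf, e1 hg]
    exact h _ (Lp.memLp v)
  have h2 := hf.coeFn_toLp
  have h3 := hg.coeFn_toLp
  rw [h1] at h2
  exact h2.symm.trans h3

lemma pair_comp {S : Ω → Ω} (hS : MeasurePreserving S μ μ) (u v : Lp ℝ 2 μ) :
    ⟪Km hS u, v⟫_ℝ = ∫ ω, u (S ω) * v ω ∂μ := by
  rw [L2.inner_def]
  apply integral_congr_ae
  filter_upwards [Km_coe hS u] with ω h
  rw [h]; simp [mul_comm]

lemma pair_eq (u v : Lp ℝ 2 μ) : ⟪u, v⟫_ℝ = ∫ ω, u ω * v ω ∂μ := by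
  rw [L2.inner_def]
  apply integral_congr_ae
  filter_upwards with ω
  simp [mul_comm]

/-- the operator attached to a weak limit -/
lemma exists_op {S : ℕ → Ω ≃ᵐ Ω} (hS : ∀ j, MeasurePreserving (S j) μ μ)
    {Q : (Ω → ℝ) → Ω → ℝ} (hQ : IsWeakLimit μ S Q) :
    ∃ L : Lp ℝ 2 μ →L[ℝ] Lp ℝ 2 μ,
      (∀ u : Lp ℝ 2 μ, (L u : Ω → ℝ) =ᵐ[μ] Q u) ∧
      (∀ u v : Lp ℝ 2 μ, Tendsto (fun j => ⟪Km (hS j) u, v⟫_ℝ) atTop (𝓝 ⟪L u, v⟫_ℝ)) := by
  classical
  set F : Lp ℝ 2 μ → Lp ℝ 2 μ := fun u => (hQ u (Lp.memLp u)).1.toLp (Q u) with hF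
  have hFc : ∀ u : Lp ℝ 2 μ, (F u : Ω → ℝ) =ᵐ[μ] Q u := fun u =>
    (hQ u (Lp.memLp u)).1.coeFn_toLp
  have hlim : ∀ u v : Lp ℝ 2 μ, Tendsto (fun j => ⟪Km (hS j) u, v⟫_ℝ) atTop (𝓝 ⟪F u, v⟫_ℝ) := by
    intro u v
    have h1 := (hQ u (Lp.memLp u)).2 v (Lp.memLp v)
    have e1 : ⟪F u, v⟫_ℝ = ∫ ω, Q u ω * v ω ∂μ := by
      rw [pair_eq]
      apply integral_congr_ae
      filter_upwards [hFc u] with ω h
      rw [h]
    rw [e1]
    simp only [pair_comp]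
    exact h1
  have hadd : ∀ u v, F (u + v) = F u + F v := by
    intro u v
    apply ext_inner_right ℝ
    intro w
    refine tendsto_nhds_unique (hlim (u + v) w) ?_
    simp only [map_add, inner_add_left]
    exact (hlim u w).add (hlim v w)
  have hsmul : ∀ (c : ℝ) u, F (c • u) = c • F u := by
    intro c u
    apply ext_inner_right ℝ
    intro w
    refine tendsto_nhds_unique (hlim (c • u) w) ?_
    simp only [map_smul, inner_smul_left]
    exact (hlim u w).const_mul _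
  have hbd : ∀ u, ‖F u‖ ≤ 1 * ‖u‖ := by
    intro u
    rw [one_mul]
    have h1 := (hlim u (F u)).abs
    have h2 : |⟪F u, F u⟫_ℝ| ≤ ‖u‖ * ‖F u‖ := by
      refine le_of_tendsto h1 (Eventually.of_forall fun j => ?_)
      refine (abs_real_inner_le_norm _ _).trans ?_
      rw [Km_norm]
    rw [real_inner_self_eq_norm_sq, abs_of_nonneg (by positivity), sq] at h2
    by_cases h3 : ‖F u‖ = 0
    · rw [h3]; exact norm_nonneg _
    · exact le_of_mul_le_mul_right h2 (lt_of_le_of_ne (norm_nonneg _) (Ne.symm h3))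
  exact ⟨LinearMap.mkContinuous { toFun := F, map_add' := hadd, map_smul' := hsmul } 1 hbd,
    hFc, hlim⟩

/-- weak limits respect a.e. equality -/
lemma weak_congr {S : ℕ → Ω ≃ᵐ Ω} (hS : ∀ j, MeasurePreserving (S j) μ μ)
    {Q : (Ω → ℝ) → Ω → ℝ} (hQ : IsWeakLimit μ S Q) {f g : Ω → ℝ} (hf : MemLp f 2 μ)
    (hg : MemLp g 2 μ) (h : f =ᵐ[μ] g) : Q f =ᵐ[μ] Q g := by
  apply ae_eq_of_pair (hQ f hf).1 (hQ g hg).1
  intro k hk
  refine tendsto_nhds_unique ((hQ f hf).2 k hk) (((hQ g hg).2 k hk).congr fun j => ?_)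
  apply integral_congr_ae
  filter_upwards [(hS j).quasiMeasurePreserving.ae h] with ω h1
  rw [h1]

theorem mixing_all_fun (hT : MeasurePreserving T μ μ) (hmix : MixingOfOrder μ T 2)
    (hC : ∀ f : Ω → ℝ, MemLp f 2 μ → ∫ ω, f ω ∂μ = 0 → ¬ f =ᵐ[μ] 0 →
      ∃ Q R : (Ω → ℝ) → Ω → ℝ, IsCentralizerLimit μ T Q R ∧
        ¬ Q (R (Q (R f))) =ᵐ[μ] Q (R f)) (k : ℕ) :
    MixingOfOrder μ T k := by
  refine mixing_all hT hmix ?_ k
  intro f hf0 hfne
  have hfae : ¬ (f : Ω → ℝ) =ᵐ[μ] 0 := by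
    intro h
    exact hfne ((Lp.eq_zero_iff_ae_eq_zero).2 h)
  obtain ⟨Q, R, ⟨q, S, hq, hS, hcomm, hQ, hR⟩, hne⟩ := hC f (Lp.memLp f) hf0 hfae
  have hSs : ∀ j, MeasurePreserving (S j).symm μ μ := fun j => (hS j).symm (S j)
  obtain ⟨L, hL1, hL2⟩ := exists_op hS hQ
  obtain ⟨L', hL'1, hL'2⟩ := exists_op hSs hR
  have hadj : ContinuousLinearMap.adjoint L = L' := by
    ext1 u
    apply ext_inner_right ℝ
    intro v
    rw [ContinuousLinearMap.adjoint_inner_left]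
    refine tendsto_nhds_unique (f := fun j => ⟪Km (hSs j) u, v⟫_ℝ) (l := atTop) ?_ (hL'2 u v)
    rw [real_inner_comm]
    refine (hL2 v u).congr fun j => ?_
    rw [real_inner_comm]
    exact (Km_adj (hSs j) (hS j) (by filter_upwards with ω; simp) u v).symm
  refine ⟨L, ⟨q, S, hS, hq, hcomm, hL2⟩, ?_⟩
  have hP : ∀ u : Lp ℝ 2 μ, (PP L u : Ω → ℝ) =ᵐ[μ] Q (R u) := by
    intro u
    have h1 : PP L u = L (L' u) := by
      unfold PP
      rw [ContinuousLinearMap.comp_apply, hadj]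
    rw [h1]
    refine (hL1 (L' u)).trans ?_
    exact weak_congr hS hQ (Lp.memLp _) (hR u (Lp.memLp u)).1 (hL'1 u)
  intro hcon
  apply hne
  have h2 : ∀ u : Lp ℝ 2 μ, MemLp (Q (R u)) 2 μ := fun u =>
    (hQ _ (hR u (Lp.memLp u)).1).1
  have h3 : (PP L (PP L f) : Ω → ℝ) =ᵐ[μ] Q (R (Q (R f))) := by
    refine (hP (PP L f)).trans ?_
    apply weak_congr hS hQ (hR _ (Lp.memLp _)).1 (hR _ (h2 f)).1
    exact weak_congr hSs hR (Lp.memLp _) (h2 f) (hP f)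
  rw [hcon] at h3
  exact h3.symm.trans (hP f)

end Vale.Agent.P102
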