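import Vale.Agent.P102.Form

open MeasureTheory Filter Topology
open scoped ENNReal InnerProductSpace

namespace Vale.Agent.P102

variable {Ω : Type*} [MeasurableSpace Ω] {μ : Measure Ω} [IsProbabilityMeasure μ] {T : Ω ≃ᵐ Ω}

set_option linter.unusedSectionVars false

lemma EB_update {n : ℕ} {u : Fin (n+1) → Lp ℝ 2 μ} {p : Fin (n+1)} {x : Lp ℝ 2 μ}
    (hu : ∀ i, i ≠ p → EB (u i)) : ∀ i, i ≠ p → EB (Function.update u p x i) := by
  intro i hi; rw [Function.update_of_ne hi]; exact hu i hi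

lemma EB_update' {n : ℕ} {u : Fin (n+1) → Lp ℝ 2 μ} {p : Fin (n+1)} {x : Lp ℝ 2 μ}
    (hu : ∀ i, EB (u i)) (hx : EB x) : ∀ i, EB (Function.update u p x i) := by
  intro i
  by_cases hi : i = p
  · subst hi; simpa using hx
  · rw [Function.update_of_ne hi]; exact hu i

/-- weak continuity in one coordinate -/
lemma weak_one {n : ℕ} (hT : MeasurePreserving T μ μ) (t : ℕ → Fin (n+1) → ℤ)
    (p : Fin (n+1)) (u : Fin (n+1) → Lp ℝ 2 μ) (hu : ∀ i, i ≠ p → EB (u i))
    (x : ℕ → Lp ℝ 2 μ) (y : Lp ℝ 2 μ)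
    (hx : ∀ g : Lp ℝ 2 μ, Tendsto (fun j => ⟪x j, g⟫_ℝ) atTop (𝓝 ⟪y, g⟫_ℝ)) :
    Tendsto (fun j => cf T t (Function.update u p (x j))) atTop
      (𝓝 (cf T t (Function.update u p y))) := by
  set v := (InnerProductSpace.toDual ℝ (Lp ℝ 2 μ)).symm (cfL hT t p u hu) with hv
  have h1 : ∀ z : Lp ℝ 2 μ, cf T t (Function.update u p z) = ⟪z, v⟫_ℝ := by
    intro z
    rw [real_inner_comm, hv, InnerProductSpace.toDual_symm_apply, cfL_apply]
  simp only [h1]
  exact hx v

/-- weak continuity in all coordinates but one -/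
lemma weak_all {n : ℕ} (hT : MeasurePreserving T μ μ) (hmix : MixingOfOrder μ T n)
    (t : ℕ → Fin (n+1) → ℤ) (ht : ∀ i j, i < j → Tendsto (fun N => t N j - t N i) atTop atTop)
    (p : Fin (n+1)) (y : ℕ → Fin (n+1) → Lp ℝ 2 μ) (z : Fin (n+1) → Lp ℝ 2 μ)
    (hy : ∀ a i, EB (y a i)) (hz : ∀ i, EB (z i)) (R : ℝ)
    (hyR : ∀ a i, ‖y a i‖ ≤ R) (hzR : ∀ i, ‖z i‖ ≤ R)
    (hw : ∀ i, ∀ g : Lp ℝ 2 μ, Tendsto (fun j => ⟪y j i, g⟫_ℝ) atTop (𝓝 ⟪z i, g⟫_ℝ))
    (x : Lp ℝ 2 μ) :
    Tendsto (fun j => cf T t (Function.update (y j) p x)) atTop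
      (𝓝 (cf T t (Function.update z p x))) := by
  classical
  have hR : 0 ≤ R := (norm_nonneg _).trans (hzR 0)
  have hprod : ∀ a b : Fin (n+1) → Lp ℝ 2 μ, (∀ i, ‖a i‖ ≤ R) → (∀ i, ‖b i‖ ≤ R) →
      |∏ i : Fin n, ⟪a (p.succAbove i), b (p.succAbove i)⟫_ℝ| ≤ (R * R) ^ n := by
    intro a b ha hb
    rw [Finset.abs_prod]
    calc _ ≤ ∏ i : Fin n, (R * R) := by
          apply Finset.prod_le_prod
          · intro i _; exact abs_nonneg _
          · intro i _
            refine (abs_real_inner_le_norm _ _).trans ?_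
            exact mul_le_mul (ha _) (hb _) (norm_nonneg _) hR
      _ = (R * R) ^ n := by simp
  have key := gram_null (fun a => cf T t (Function.update (y a) p x) -
      cf T t (Function.update z p x))
    (fun a b => ∏ i : Fin n, ⟪y a (p.succAbove i), y b (p.succAbove i)⟫_ℝ -
      ∏ i : Fin n, ⟪y a (p.succAbove i), z (p.succAbove i)⟫_ℝ -
      ∏ i : Fin n, ⟪z (p.succAbove i), y b (p.succAbove i)⟫_ℝ +
      ∏ i : Fin n, ⟪z (p.succAbove i), z (p.succAbove i)⟫_ℝ)
    (‖x‖ ^ 2) (4 * (R * R) ^ n) (by positivity) ?_ ?_ ?_ ?_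
  · have := key.add_const (cf T t (Function.update z p x))
    simpa using this
  · intro A s
    have h1 := cf_gram hT hmix t ht p (Finset.insertNone A)
      (fun o : Option ℕ => o.elim (-∑ a ∈ A, s a) s)
      (fun o : Option ℕ => o.elim z y) (by
        intro o i _
        cases o with
        | none => exact hz i
        | some a => exact hy a i) x
    simp only [Finset.sum_insertNone, Option.elim_none, Option.elim_some] at h1
    convert h1 using 1
    · congr 1
      simp only [mul_sub, Finset.sum_sub_distrib, Finset.sum_mul, neg_mul]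
      ring
    · congr 1
      simp only [mul_add, mul_sub, Finset.sum_add_distrib, Finset.sum_sub_distrib]
      have e1 : ∑ a ∈ A, ∑ b ∈ A, s a * s b *
          ∏ i : Fin n, ⟪y a (p.succAbove i), z (p.succAbove i)⟫_ℝ =
          ∑ a ∈ A, s a * (∑ b ∈ A, s b) *
            ∏ i : Fin n, ⟪y a (p.succAbove i), z (p.succAbove i)⟫_ℝ := by
        apply Finset.sum_congr rfl
        intro a _
        rw [Finset.mul_sum, Finset.sum_mul]
      have e2 : ∑ a ∈ A, ∑ b ∈ A, s a * s b *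
          ∏ i : Fin n, ⟪z (p.succAbove i), y b (p.succAbove i)⟫_ℝ =
          ∑ b ∈ A, (∑ a ∈ A, s a) * s b *
            ∏ i : Fin n, ⟪z (p.succAbove i), y b (p.succAbove i)⟫_ℝ := by
        rw [Finset.sum_comm]
        apply Finset.sum_congr rfl
        intro b _
        rw [Finset.sum_mul, Finset.sum_mul]
      have e3 : ∑ a ∈ A, ∑ b ∈ A, s a * s b *
          ∏ i : Fin n, ⟪z (p.succAbove i), z (p.succAbove i)⟫_ℝ =
          (∑ a ∈ A, s a) * (∑ b ∈ A, s b) *
            ∏ i : Fin n, ⟪z (p.succAbove i), z (p.succAbove i)⟫_ℝ := by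
        rw [Finset.sum_mul_sum, Finset.sum_mul]
        apply Finset.sum_congr rfl
        intro a _
        rw [Finset.sum_mul]
      rw [e1, e2, e3]
      have e4 : ∑ a ∈ A, s a * (∑ b ∈ A, s b) *
            ∏ i : Fin n, ⟪y a (p.succAbove i), z (p.succAbove i)⟫_ℝ =
          - ∑ a ∈ A, s a * (-∑ b ∈ A, s b) *
            ∏ i : Fin n, ⟪y a (p.succAbove i), z (p.succAbove i)⟫_ℝ := by
        rw [← Finset.sum_neg_distrib]
        apply Finset.sum_congr rfl
        intro a _
        ring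
      have e5 : ∑ b ∈ A, (∑ a ∈ A, s a) * s b *
            ∏ i : Fin n, ⟪z (p.succAbove i), y b (p.succAbove i)⟫_ℝ =
          - ∑ b ∈ A, (-∑ a ∈ A, s a) * s b *
            ∏ i : Fin n, ⟪z (p.succAbove i), y b (p.succAbove i)⟫_ℝ := by
        rw [← Finset.sum_neg_distrib]
        apply Finset.sum_congr rfl
        intro a _
        ring
      rw [e4, e5]
      ring
  · intro a b
    have h1 : ∀ c d : Fin (n+1) → Lp ℝ 2 μ,
        ∏ i : Fin n, ⟪c (p.succAbove i), d (p.succAbove i)⟫_ℝ =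
        ∏ i : Fin n, ⟪d (p.succAbove i), c (p.succAbove i)⟫_ℝ := by
      intro c d
      apply Finset.prod_congr rfl
      intro i _
      exact real_inner_comm _ _
    rw [h1 (y a) (y b), h1 (y a) z, h1 z (y b)]
    ring
  · intro a
    have h1 := abs_le.1 (hprod (y a) (y a) (hyR a) (hyR a))
    have h2 := abs_le.1 (hprod (y a) z (hyR a) hzR)
    have h3 := abs_le.1 (hprod z (y a) hzR (hyR a))
    have h4 := abs_le.1 (hprod z z hzR hzR)
    linarith [h1.2, h2.1, h3.1, h4.2]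
  · intro a
    have h1 : Tendsto (fun b => ∏ i : Fin n, ⟪y a (p.succAbove i), y b (p.succAbove i)⟫_ℝ) atTop
        (𝓝 (∏ i : Fin n, ⟪y a (p.succAbove i), z (p.succAbove i)⟫_ℝ)) := by
      apply tendsto_finsetProd
      intro i _
      simpa [real_inner_comm] using hw (p.succAbove i) (y a (p.succAbove i))
    have h2 : Tendsto (fun b => ∏ i : Fin n, ⟪z (p.succAbove i), y b (p.succAbove i)⟫_ℝ) atTop
        (𝓝 (∏ i : Fin n, ⟪z (p.succAbove i), z (p.succAbove i)⟫_ℝ)) := by
      apply tendsto_finsetProd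
      intro i _
      simpa [real_inner_comm] using hw (p.succAbove i) (z (p.succAbove i))
    have h3 := ((h1.sub_const (∏ i : Fin n, ⟪y a (p.succAbove i), z (p.succAbove i)⟫_ℝ)).sub
      h2).add_const (∏ i : Fin n, ⟪z (p.succAbove i), z (p.succAbove i)⟫_ℝ)
    simpa using h3

/-- A system of sequences of invertible operators leaving the limit form invariant and
converging weakly. -/
structure Sys {n : ℕ} (T : Ω ≃ᵐ Ω) (t : ℕ → Fin (n+1) → ℤ)
    (W W' : Fin (n+1) → ℕ → Lp ℝ 2 μ →L[ℝ] Lp ℝ 2 μ)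
    (Q : Fin (n+1) → Lp ℝ 2 μ →L[ℝ] Lp ℝ 2 μ) : Prop where
  ebW : ∀ i j u, EB u → EB (W i j u)
  ebW' : ∀ i j u, EB u → EB (W' i j u)
  ebQ : ∀ i u, EB u → EB (Q i u)
  ebQ' : ∀ i u, EB u → EB (ContinuousLinearMap.adjoint (Q i) u)
  inv : ∀ i j u, W i j (W' i j u) = u
  inv' : ∀ i j u, W' i j (W i j u) = u
  adj : ∀ i j f g, ⟪W i j f, g⟫_ℝ = ⟪f, W' i j g⟫_ℝ
  norm : ∀ i j u, ‖W i j u‖ = ‖u‖
  weak : ∀ i f g, Tendsto (fun j => ⟪W i j f, g⟫_ℝ) atTop (𝓝 ⟪Q i f, g⟫_ℝ)
  form : ∀ j u, (∀ i, EB (u i)) → cf T t (fun i => W i j (u i)) = cf T t u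

variable {n : ℕ} {t : ℕ → Fin (n+1) → ℤ} {W W' : Fin (n+1) → ℕ → Lp ℝ 2 μ →L[ℝ] Lp ℝ 2 μ}
    {Q : Fin (n+1) → Lp ℝ 2 μ →L[ℝ] Lp ℝ 2 μ}

lemma Sys.symm (h : Sys T t W W' Q) :
    Sys T t W' W (fun i => ContinuousLinearMap.adjoint (Q i)) where
  ebW := h.ebW'
  ebW' := h.ebW
  ebQ := h.ebQ'
  ebQ' := by
    intro i u hu
    rw [ContinuousLinearMap.adjoint_adjoint]
    exact h.ebQ i u hu
  inv := h.inv'
  inv' := h.inv
  adj := by
    intro i j f g
    rw [real_inner_comm, ← h.adj, real_inner_comm]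
  norm := by
    intro i j u
    rw [← h.norm i j (W' i j u), h.inv]
  weak := by
    intro i f g
    rw [ContinuousLinearMap.adjoint_inner_left]
    have := h.weak i g f
    simpa [real_inner_comm, h.adj] using this
  form := by
    intro j u hu
    rw [← h.form j (fun i => W' i j (u i)) (fun i => h.ebW' i j _ (hu i))]
    simp only [h.inv]

lemma Sys.norm_Q_le (h : Sys T t W W' Q) (i : Fin (n+1)) (u : Lp ℝ 2 μ) : ‖Q i u‖ ≤ ‖u‖ := by
  have h1 := (h.weak i u (Q i u)).abs
  have h2 : |⟪Q i u, Q i u⟫_ℝ| ≤ ‖u‖ * ‖Q i u‖ := by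
    refine le_of_tendsto h1 (Eventually.of_forall fun j => ?_)
    refine (abs_real_inner_le_norm _ _).trans ?_
    rw [h.norm]
  rw [real_inner_self_eq_norm_sq, abs_of_nonneg (by positivity), sq] at h2
  by_cases h3 : ‖Q i u‖ = 0
  · rw [h3]; exact norm_nonneg _
  · exact le_of_mul_le_mul_right h2 (lt_of_le_of_ne (norm_nonneg _) (Ne.symm h3))

/-- the star identity -/
lemma Sys.star (h : Sys T t W W' Q) (hT : MeasurePreserving T μ μ) (hmix : MixingOfOrder μ T n)
    (ht : ∀ i j, i < j → Tendsto (fun N => t N j - t N i) atTop atTop)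
    (p : Fin (n+1)) (u : Fin (n+1) → Lp ℝ 2 μ) (hu : ∀ i, EB (u i)) (v : Lp ℝ 2 μ) (hv : EB v) :
    cf T t (Function.update (fun i => Q i (u i)) p v) =
      cf T t (Function.update u p (ContinuousLinearMap.adjoint (Q p) v)) := by
  obtain ⟨R, hR⟩ : ∃ R, ∀ i, ‖u i‖ ≤ R := by
    obtain ⟨R, hR⟩ := (Set.finite_range fun i => ‖u i‖).bddAbove
    exact ⟨R, fun i => hR ⟨i, rfl⟩⟩
  have h1 := weak_all hT hmix t ht p (fun j i => W i j (u i)) (fun i => Q i (u i))
    (fun j i => h.ebW i j _ (hu i)) (fun i => h.ebQ i _ (hu i)) R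
    (fun j i => by rw [h.norm]; exact hR i) (fun i => (h.norm_Q_le i _).trans (hR i))
    (fun i g => h.weak i (u i) g) v
  have h2 := weak_one hT t p u (fun i _ => hu i) (fun j => W' p j v)
    (ContinuousLinearMap.adjoint (Q p) v) (fun g => h.symm.weak p v g)
  refine tendsto_nhds_unique h1 ?_
  convert h2 using 2 with j
  rw [← h.form j (Function.update u p (W' p j v)) (EB_update' hu (h.ebW' p j v hv))]
  congr 1
  funext i
  by_cases hi : i = p
  · subst hi; simp [h.inv]
  · rw [Function.update_of_ne hi, Function.update_of_ne hi]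

/-- `P i = Q i (Q i)†` -/
noncomputable def PP (Q : Lp ℝ 2 μ →L[ℝ] Lp ℝ 2 μ) : Lp ℝ 2 μ →L[ℝ] Lp ℝ 2 μ :=
  Q ∘L (ContinuousLinearMap.adjoint Q)

lemma Sys.ebP (h : Sys T t W W' Q) (i : Fin (n+1)) (u : Lp ℝ 2 μ) (hu : EB u) :
    EB (PP (Q i) u) := h.ebQ i _ (h.ebQ' i u hu)

/-- claim 1 -/
lemma Sys.claim1 (h : Sys T t W W' Q) (hT : MeasurePreserving T μ μ)
    (hmix : MixingOfOrder μ T n)
    (ht : ∀ i j, i < j → Tendsto (fun N => t N j - t N i) atTop atTop)
    (p : Fin (n+1)) (u : Fin (n+1) → Lp ℝ 2 μ) (hu : ∀ i, EB (u i)) :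
    cf T t (fun i => ContinuousLinearMap.adjoint (Q i) (u i)) =
      cf T t (Function.update u p (PP (Q p) (u p))) := by
  have h1 := h.symm.star hT hmix ht p u hu (ContinuousLinearMap.adjoint (Q p) (u p))
    (h.ebQ' p _ (hu p))
  rw [ContinuousLinearMap.adjoint_adjoint] at h1
  have e : (Function.update (fun i => ContinuousLinearMap.adjoint (Q i) (u i)) p
      (ContinuousLinearMap.adjoint (Q p) (u p))) =
      fun i => ContinuousLinearMap.adjoint (Q i) (u i) := by
    exact Function.update_eq_self p (fun i => ContinuousLinearMap.adjoint (Q i) (u i))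
  rw [e] at h1
  exact h1

/-- claim 2 -/
lemma Sys.claim2 (h : Sys T t W W' Q) (hT : MeasurePreserving T μ μ)
    (hmix : MixingOfOrder μ T n)
    (ht : ∀ i j, i < j → Tendsto (fun N => t N j - t N i) atTop atTop)
    (p : Fin (n+1)) (u : Fin (n+1) → Lp ℝ 2 μ) (hu : ∀ i, EB (u i)) :
    cf T t (Function.update (fun i => PP (Q i) (u i)) p (u p)) =
      cf T t (fun i => ContinuousLinearMap.adjoint (Q i) (u i)) := by
  have h1 := h.star hT hmix ht p (fun i => ContinuousLinearMap.adjoint (Q i) (u i))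
    (fun i => h.ebQ' i _ (hu i)) (u p) (hu p)
  have e : (Function.update (fun i => ContinuousLinearMap.adjoint (Q i) (u i)) p
      (ContinuousLinearMap.adjoint (Q p) (u p))) =
      fun i => ContinuousLinearMap.adjoint (Q i) (u i) := by
    exact Function.update_eq_self p (fun i => ContinuousLinearMap.adjoint (Q i) (u i))
  rw [e] at h1
  exact h1

lemma ebPpow (h : Sys T t W W' Q) (i : Fin (n+1)) (m : ℕ) (u : Lp ℝ 2 μ) (hu : EB u) :
    EB (((PP (Q i)) ^ m) u) := by
  induction m with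
  | zero => simpa using hu
  | succ m ih =>
    rw [pow_succ']
    exact h.ebP i _ ih

/-- claim 3 -/
lemma Sys.claim3 (h : Sys T t W W' Q) (hT : MeasurePreserving T μ μ)
    (hmix : MixingOfOrder μ T n)
    (ht : ∀ i j, i < j → Tendsto (fun N => t N j - t N i) atTop atTop)
    (s : Finset (Fin (n+1))) : ∀ (u : Fin (n+1) → Lp ℝ 2 μ) (_ : ∀ i, EB (u i)),
    cf T t (fun i => if i ∈ s then PP (Q i) (u i) else u i) =
      cf T t (Function.update u 0 (((PP (Q 0)) ^ s.card) (u 0))) := by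
  classical
  induction s using Finset.induction_on with
  | empty => intro u hu; simp
  | insert q s hq ih =>
    intro u hu
    set w : Fin (n+1) → Lp ℝ 2 μ := fun i => if i ∈ s then PP (Q i) (u i) else u i with hw
    have hwEB : ∀ i, EB (w i) := by
      intro i
      simp only [hw]
      by_cases hi : i ∈ s
      · rw [if_pos hi]; exact h.ebP i _ (hu i)
      · rw [if_neg hi]; exact hu i
    have hwq : w q = u q := by simp [hw, hq]
    have e1 : (fun i => if i ∈ insert q s then PP (Q i) (u i) else u i) =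
        Function.update w q (PP (Q q) (w q)) := by
      funext i
      by_cases hi : i = q
      · subst hi; simp [hwq]
      · rw [Function.update_of_ne hi]
        simp [hw, hi]
    rw [e1, ← h.claim1 hT hmix ht q w hwEB, h.claim1 hT hmix ht 0 w hwEB]
    have e2 : Function.update w 0 (PP (Q 0) (w 0)) =
        fun i => if i ∈ s then PP (Q i) (Function.update u 0 (PP (Q 0) (u 0)) i)
          else Function.update u 0 (PP (Q 0) (u 0)) i := by
      funext i
      by_cases hi : i = 0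
      · subst hi
        by_cases h0 : (0 : Fin (n+1)) ∈ s <;> simp [hw, h0]
      · rw [Function.update_of_ne hi, Function.update_of_ne hi]
    rw [e2, ih (Function.update u 0 (PP (Q 0) (u 0))) (EB_update' hu (h.ebP 0 _ (hu 0)))]
    rw [Function.update_idem, Function.update_self, Finset.card_insert_of_notMem hq]
    congr 2

/-- combination -/
lemma Sys.claim4 (h : Sys T t W W' Q) (hT : MeasurePreserving T μ μ)
    (hmix : MixingOfOrder μ T n)
    (ht : ∀ i j, i < j → Tendsto (fun N => t N j - t N i) atTop atTop)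
    (u : Fin (n+1) → Lp ℝ 2 μ) (hu : ∀ i, EB (u i)) :
    cf T t (Function.update u 0 (((PP (Q 0)) ^ n) (u 0))) =
      cf T t (Function.update u 0 (PP (Q 0) (u 0))) := by
  classical
  rw [← h.claim1 hT hmix ht 0 u hu, ← h.claim2 hT hmix ht 0 u hu]
  have h3 := h.claim3 hT hmix ht (Finset.univ.erase 0) u hu
  rw [Finset.card_erase_of_mem (Finset.mem_univ _), Finset.card_univ, Fintype.card_fin,
    Nat.add_sub_cancel] at h3
  rw [← h3]
  congr 1
  funext i
  by_cases hi : i = 0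
  · subst hi; simp
  · rw [Function.update_of_ne hi]; simp [hi]

end Vale.Agent.P102
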